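import Vale.Agent.P091.CH.H106.En1
import Vale.Agent.P091.CH.H350.Bes
import Vale.Agent.P091.CH.H847.Ker
import Vale.Agent.P091.CH.H69.Geo

/-!
# Carleson-Hunt on the finite grid: the energy lemma `P_EN` (helper106)
-/

open Finset

namespace Vale.Agent.P091.CH.H106

open Vale.Agent.P091.CH Vale.Agent.P091.CH.H847

variable {K : ℕ}

/-- quadratic form bound -/
theorem form_le {ι : Type*} (T : Finset ι) (len : ι → ℝ) (hlen : ∀ s, 0 ≤ len s) (c : ι → ℂ)
    (v : ι → X K → ℂ) :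
    ave (fun x : X K => ‖∑ s ∈ T, len s * c s * v s x‖ ^ 2) ≤
      ∑ s ∈ T, ∑ t ∈ T, (len s * ‖c s‖) * (len t * ‖c t‖) *
        ‖aveC (fun x : X K => v s x * (starRingEnd ℂ) (v t x))‖ := by
  have h1 : ((ave (fun x : X K => ‖∑ s ∈ T, len s * c s * v s x‖ ^ 2) : ℝ) : ℂ)
      = ∑ s ∈ T, ∑ t ∈ T, ((len s * c s) * (len t * (starRingEnd ℂ) (c t))) *
        aveC (fun x : X K => v s x * (starRingEnd ℂ) (v t x)) := by
    rw [H350.ave_sq_ofReal]
    have e : ∀ x : X K, (∑ s ∈ T, len s * c s * v s x) *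
        (starRingEnd ℂ) (∑ s ∈ T, len s * c s * v s x)
        = ∑ s ∈ T, ∑ t ∈ T, ((len s * c s) * (len t * (starRingEnd ℂ) (c t))) *
            (v s x * (starRingEnd ℂ) (v t x)) := by
      intro x
      rw [map_sum, Finset.sum_mul_sum]
      refine Finset.sum_congr rfl fun s _ => Finset.sum_congr rfl fun t _ => ?_
      rw [map_mul, map_mul, Complex.conj_ofReal]
      ring
    simp_rw [e]
    rw [aveC_sum]
    refine Finset.sum_congr rfl fun s _ => ?_
    rw [aveC_sum]
    refine Finset.sum_congr rfl fun t _ => ?_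
    rw [aveC_mul_left]
  have h3 : ave (fun x : X K => ‖∑ s ∈ T, len s * c s * v s x‖ ^ 2)
      = ‖((ave (fun x : X K => ‖∑ s ∈ T, len s * c s * v s x‖ ^ 2) : ℝ) : ℂ)‖ := by
    rw [Complex.norm_real, Real.norm_eq_abs, abs_of_nonneg]
    exact H350.ave_nonneg fun x => by positivity
  rw [h3, h1]
  refine (norm_sum_le _ _).trans (Finset.sum_le_sum fun s _ => ?_)
  refine (norm_sum_le _ _).trans (Finset.sum_le_sum fun t _ => ?_)
  rw [norm_mul, norm_mul, norm_mul, norm_mul, Complex.norm_conj, Complex.norm_real,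
    Complex.norm_real, Real.norm_eq_abs, Real.norm_eq_abs, abs_of_nonneg (hlen s),
    abs_of_nonneg (hlen t)]

theorem gram_symm {ι : Type*} (v : ι → X K → ℂ) (s t : ι) :
    ‖aveC (fun x : X K => v s x * (starRingEnd ℂ) (v t x))‖ =
      ‖aveC (fun x : X K => v t x * (starRingEnd ℂ) (v s x))‖ := by
  have : aveC (fun x : X K => v t x * (starRingEnd ℂ) (v s x)) =
      (starRingEnd ℂ) (aveC (fun x : X K => v s x * (starRingEnd ℂ) (v t x))) := by
    rw [H350.conj_aveC]
    congr 1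
    funext x
    rw [map_mul, Complex.conj_conj, mul_comm]
  rw [this, Complex.norm_conj]

/-- row sums at one scale -/
theorem row_same (k1 : P_KER1) (g1 : P_GEO1) (g2 : P_GEO2) (g3 : P_GEO3) :
    ∀ B : ℝ, ∃ C : ℝ, 0 ≤ C ∧ ∀ m, IsSym B m → ∀ (K r : ℕ), r < 8 →
    ∀ (U : Finset Tile), Good K U → ∀ s ∈ U,
    ∑ t ∈ U with t.k = s.k,
      t.len * ‖aveC (fun x : X K => pk m r s x * (starRingEnd ℂ) (pk m r t x))‖ ≤ C := by
  intro B
  obtain ⟨C1, hC10, hC1⟩ := H350.bes1'_of k1 g1 g3 B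
  obtain ⟨C2, hC2⟩ := g2
  refine ⟨C1 * |C2|, by positivity, fun m hm K r hr U hG s hs => ?_⟩
  have hsO := hG.2 s hs
  have bs := H350.Ok_bounds hsO
  have hterm : ∀ t ∈ U.filter (fun t => t.k = s.k),
      t.len * ‖aveC (fun x : X K => pk m r s x * (starRingEnd ℂ) (pk m r t x))‖
      ≤ if t.l = s.l then
          C1 * (1 + 2 ^ s.k * nrm (s.c K - pt K s.k t.j 0))⁻¹ ^ 2 else 0 := by
    intro t ht'
    obtain ⟨ht, hk⟩ := Finset.mem_filter.1 ht'
    by_cases hl : t.l = s.l
    · rw [if_pos hl]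
      have h1 := hC1 m m hm hm K r hr s t hsO (hG.2 t ht) hk.symm.le
      have h2 : ‖aveC (fun x : X K => pk m r s x * (starRingEnd ℂ) (pk m r t x))‖
          ≤ ave (fun x : X K => ‖pk m r s x‖ * ‖pk m r t x‖) := by
        refine (H350.norm_aveC_le _).trans (le_of_eq ?_)
        congr 1
        funext x
        rw [norm_mul, Complex.norm_conj]
      have hn : 0 ≤ nrm (s.c K - t.c K) := nrm_nonneg _
      have h3 : (1 + 2 ^ s.k * nrm (s.c K - t.c K))⁻¹ ^ 15
          ≤ (1 + 2 ^ s.k * nrm (s.c K - t.c K))⁻¹ ^ 2 := by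
        have : (0:ℝ) < 2 ^ s.k := by positivity
        refine pow_le_pow_of_le_one (by positivity) (inv_le_one_of_one_le₀ ?_) (by norm_num)
        nlinarith
      have h4 : t.len * 2 ^ s.k = 1 := by rw [← hk]; exact H350.len_mul t
      have h5 : t.c K = pt K s.k t.j 0 := by unfold Tile.c; rw [hk]
      rw [h5] at h1 h3
      have hl' : 0 ≤ t.len := (H350.len_pos t).le
      calc t.len * ‖aveC (fun x : X K => pk m r s x * (starRingEnd ℂ) (pk m r t x))‖
          ≤ t.len * (C1 * 2 ^ s.k * (1 + 2 ^ s.k * nrm (s.c K - pt K s.k t.j 0))⁻¹ ^ 2) := by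
            refine mul_le_mul_of_nonneg_left ?_ hl'
            refine h2.trans (h1.trans ?_)
            gcongr
        _ = (t.len * 2 ^ s.k) * (C1 * (1 + 2 ^ s.k * nrm (s.c K - pt K s.k t.j 0))⁻¹ ^ 2) := by
            ring
        _ = _ := by rw [h4, one_mul]
    · have h16 := (hG.1 s hs t ht).2
      have hsep : (s.l - 2) * 2 ^ s.k ≤ (t.l - 10) * 2 ^ t.k ∨
          (t.l - 2) * 2 ^ t.k ≤ (s.l - 10) * 2 ^ s.k := by
        rw [hk]
        have hp : (0:ℤ) < 2 ^ s.k := by positivity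
        rcases lt_or_gt_of_ne hl with h | h
        · right
          apply mul_le_mul_of_nonneg_right _ hp.le
          omega
        · left
          apply mul_le_mul_of_nonneg_right _ hp.le
          omega
      have h0 := H350.bes2' (K := K) hm hm r s t hsep
      rw [h0, norm_zero, mul_zero, if_neg hl]
  refine (Finset.sum_le_sum hterm).trans ?_
  rw [← Finset.sum_filter, Finset.filter_filter]
  have hinj : ∑ t ∈ U.filter (fun t => t.k = s.k ∧ t.l = s.l),
      C1 * (1 + 2 ^ s.k * nrm (s.c K - pt K s.k t.j 0))⁻¹ ^ 2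
      ≤ ∑ j ∈ range (2 ^ s.k), C1 * (1 + 2 ^ s.k * nrm (s.c K - pt K s.k j 0))⁻¹ ^ 2 := by
    rw [← Finset.sum_image (s := U.filter (fun t => t.k = s.k ∧ t.l = s.l)) (g := fun t => t.j)
      (f := fun j => C1 * (1 + 2 ^ s.k * nrm (s.c K - pt K s.k j 0))⁻¹ ^ 2)]
    · refine Finset.sum_le_sum_of_subset_of_nonneg ?_ ?_
      · intro j hj
        rw [mem_image] at hj
        obtain ⟨t, ht, rfl⟩ := hj
        rw [mem_filter] at ht
        rw [mem_range, ← ht.2.1]
        exact (hG.2 t ht.1).2.1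
      · intro j _ _
        positivity
    · intro t ht t' ht' hj
      rw [Finset.mem_coe, mem_filter] at ht ht'
      exact Tile.ext (ht.2.1.trans ht'.2.1.symm) hj (ht.2.2.trans ht'.2.2.symm)
  refine hinj.trans ?_
  rw [← Finset.mul_sum]
  refine mul_le_mul_of_nonneg_left ?_ hC10
  exact (hC2 K s.k 0 (s.c K) bs.1 (by norm_num)).trans (le_abs_self _)

/-- the single tile bound -/
theorem single_le {a : Tile → ℂ} {P : Finset Tile} {e : ℝ} (he : 0 ≤ e) (h : EnLe a P e)
    {t : Tile} (ht : t ∈ P) : ‖a t‖ ≤ e := by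
  have h1 := h {t} (by simpa using ht) t.k t.j (t.l * 2 ^ t.k) (by
    intro s hs
    rw [Finset.mem_singleton] at hs
    subst hs
    refine ⟨le_rfl, by simp, ?_⟩
    rw [Int.mul_ediv_cancel _ (by positivity)]
    simp)
  rw [Finset.sum_singleton] at h1
  have hl : 0 < t.len := H350.len_pos t
  have h2 : ‖a t‖ ^ 2 ≤ e ^ 2 := by
    unfold Tile.len at h1 hl
    rw [mul_comm] at h1
    exact le_of_mul_le_mul_right h1 hl
  exact le_of_sq_le_sq h2 he
  where le_of_sq_le_sq {x y : ℝ} (h : x ^ 2 ≤ y ^ 2) (hy : 0 ≤ y) : x ≤ y :=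
    abs_le_of_sq_le_sq' h hy |>.2

/-- strong disjointness of two selected tiles -/
theorem sel_strong {a : Tile → ℂ} {e : ℝ} {P : Finset Tile} (S : Sel a e P) (hP : Sparse P)
    {i i' : ℕ} (hn : i < S.n) (hn' : i' < S.n) {s s' : Tile} (hs : s ∈ S.T i) (hs' : s' ∈ S.T i')
    (hk : s.k < s'.k) (h1 : lo s' < hi s + 8 * 2 ^ s.k) (h2 : lo s - 8 * 2 ^ s.k < hi s') :
    s'.j / 2 ^ (s'.k - S.kT i) ≠ S.jT i := by
  intro hj
  have hsP : s ∈ P := (Finset.mem_sdiff.1 (S.sub i hn (S.TR i hn hs))).1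
  have hsP' : s' ∈ P := (Finset.mem_sdiff.1 (S.sub i' hn' (S.TR i' hn' hs'))).1
  have h5 := (hP s hsP s' hsP').1
  have a1 := S.lac i hn s hs
  have a2 := S.lac i' hn' s' hs'
  obtain ⟨b1, b2⟩ := near_of a1.2.2 a2.2.2 (by omega) h1 h2
  have hlt : i < i' := by
    by_contra hcon
    have := S.mono i' hn' i hn (by omega)
    omega
  refine S.rem i hn i' hn' hlt s' (S.TR i' hn' hs') ⟨?_, hj, b2⟩
  have := a1.1
  omega

/-- the time interval of a smaller selected tile which interacts with `s ∈ T i` is outside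
of the top interval -/
theorem sel_out {a : Tile → ℂ} {e : ℝ} {P : Finset Tile} (S : Sel a e P) (hP : Good K P)
    {i i' : ℕ} (hn : i < S.n) (hn' : i' < S.n) {s s' : Tile} (hs : s ∈ S.T i) (hs' : s' ∈ S.T i')
    (hk : s.k < s'.k) (hm : Meet s s') :
    Disjoint (dy K (S.kT i) (S.jT i)) (s'.I K) := by
  have hsP' : s' ∈ P := (Finset.mem_sdiff.1 (S.sub i' hn' (S.TR i' hn' hs'))).1
  have h1 := (S.lac i hn s hs).1
  have h2 := (hP.2 s' hsP').1
  have hp : (0:ℤ) < 2 ^ s.k := by positivity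
  refine dy_disj (by omega) (by omega) (sel_strong S hP.1 hn hn' hs hs' hk ?_ ?_)
  · have := hm.1; omega
  · have := hm.2; omega

/-- two smaller selected tiles which interact with `s` have disjoint time intervals -/
theorem sel_disj {a : Tile → ℂ} {e : ℝ} {P : Finset Tile} (S : Sel a e P) (hP : Good K P)
    {i' i'' : ℕ} (hn' : i' < S.n) (hn'' : i'' < S.n) {s s' s'' : Tile}
    (hs' : s' ∈ S.T i') (hs'' : s'' ∈ S.T i'') (hk' : s.k < s'.k) (hk'' : s.k < s''.k)
    (hsP : s ∈ P) (hm' : Meet s s') (hm'' : Meet s s'') (hne : s' ≠ s'') :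
    Disjoint (s'.I K) (s''.I K) := by
  have key : ∀ {i' i'' : ℕ} (_ : i' < S.n) (_ : i'' < S.n) {s' s'' : Tile}
      (_ : s' ∈ S.T i') (_ : s'' ∈ S.T i'') (_ : s.k < s'.k) (_ : s'.k < s''.k)
      (_ : Meet s s') (_ : Meet s s''), Disjoint (s'.I K) (s''.I K) := by
    intro i' i'' hn' hn'' s' s'' hs' hs'' hk1 hk2 hm' hm''
    have hsP'' : s'' ∈ P := (Finset.mem_sdiff.1 (S.sub i'' hn'' (S.TR i'' hn'' hs''))).1
    have h2 := (hP.2 s'' hsP'').1
    have hpp : (2:ℤ) ^ s.k ≤ 2 ^ s'.k := pow_le_pow_right₀ (by norm_num) hk1.le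
    have e1 := hi_eq s
    have e2 := hi_eq s'
    have e3 := hi_eq s''
    have hj := sel_strong S hP.1 hn' hn'' hs' hs'' hk2
      (by have := hm'.1; have := hm'.2; have := hm''.1; have := hm''.2; omega)
      (by have := hm'.1; have := hm'.2; have := hm''.1; have := hm''.2; omega)
    have h3 := (S.lac i' hn' s' hs')
    refine dy_disj hk2.le (by omega) ?_
    intro hj2
    apply hj
    rw [← h3.2.1, ← hj2, Nat.div_div_eq_div_mul, ← pow_add]
    congr 2
    have := h3.1
    omega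
  rcases lt_trichotomy s'.k s''.k with h | h | h
  · exact key hn' hn'' hs' hs'' hk' h hm' hm''
  · have hsP' : s' ∈ P := (Finset.mem_sdiff.1 (S.sub i' hn' (S.TR i' hn' hs'))).1
    have hsP'' : s'' ∈ P := (Finset.mem_sdiff.1 (S.sub i'' hn'' (S.TR i'' hn'' hs''))).1
    have c1 := (hP.1 s' hsP' s'' hsP'').2
    have c5 := (hP.1 s hsP s' hsP').1
    have hl : s'.l = s''.l := by
      have e1 := hi_eq s
      have e2 := hi_eq s'
      have e3 := hi_eq s''
      have b1 := hm'.1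
      have b2 := hm'.2
      have b3 := hm''.1
      have b4 := hm''.2
      have hpp : 32 * (2:ℤ) ^ s.k ≤ 2 ^ s'.k := by
        have : (2:ℤ) ^ (s.k + 5) ≤ 2 ^ s'.k := pow_le_pow_right₀ (by norm_num) (by omega)
        rw [pow_add] at this
        linarith
      unfold lo at b1 b3 e2 e3
      rw [← h] at b3 e3
      unfold lo at e1 b2 b4
      have hp : (0:ℤ) < 2 ^ s'.k := by positivity
      have hq : (0:ℤ) < 2 ^ s.k := by positivity
      by_contra hne'
      rcases lt_or_gt_of_ne hne' with h6 | h6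
      · have h7 : s'.l + 16 ≤ s''.l := by omega
        nlinarith
      · have h7 : s''.l + 16 ≤ s'.l := by omega
        nlinarith
    have hj : s'.j ≠ s''.j := fun hj => hne (Tile.ext h hj hl)
    unfold Tile.I
    rw [h]
    exact dy_disj_same hj
  · exact (key hn'' hn' hs'' hs' hk'' h hm'' hm').symm

end Vale.Agent.P091.CH.H106
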