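import Vale.Agent.P091.CH.H106.Geo

/-!
Energy lemma, part (c): sums over tiles (helper106).
-/

open Finset

namespace Vale.Agent.P091.CH.H106

variable {K : ℕ}

/-- decaying weight -/
noncomputable def dk (k : ℕ) (x : X K) : ℝ := (1 + 2 ^ k * nrm x)⁻¹

theorem dk_pos (k : ℕ) (x : X K) : 0 < dk k x := by
  unfold dk
  have := nrm_nonneg x
  positivity

theorem dk_le_one (k : ℕ) (x : X K) : dk k x ≤ 1 := by
  unfold dk
  apply inv_le_one_of_one_le₀
  have := nrm_nonneg x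
  have : 0 ≤ (2:ℝ) ^ k * nrm x := by positivity
  linarith

/-- weighted average over a finite set -/
noncomputable def aveOn (A : Finset (X K)) (g : X K → ℝ) : ℝ := (∑ x ∈ A, g x) / 2 ^ K

theorem tile_int (h3 : P_GEO3) (h4 : P_GEO4) {k : ℕ} {t : Tile} (ht : t.Ok K) (hk : k ≤ t.k)
    (c : X K) :
    t.len * dk k (c - t.c K) ^ 15 ≤ 2 ^ 15 * aveOn (t.I K) (fun x => dk k (x - c) ^ 15) := by
  have hK : (0:ℝ) < 2 ^ K := by positivity
  have h1 : ∀ x ∈ t.I K, dk k (c - t.c K) ^ 15 ≤ 2 ^ 15 * dk k (x - c) ^ 15 := by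
    intro x hx
    have h5 := (h3 K t.k t.j 0 x (by have := ht.1; omega) (by norm_num) ht.2.1 hx).1
    rw [← mul_pow]
    apply pow_le_pow_left₀ (dk_pos _ _).le
    unfold dk
    have hn1 := nrm_nonneg (x - c)
    have hn2 := nrm_nonneg (c - t.c K)
    rw [← div_eq_mul_inv, le_div_iff₀ (by positivity), inv_mul_eq_div,
      div_le_iff₀ (by positivity)]
    have h6 : nrm (x - c) ≤ nrm (x - pt K t.k t.j 0) + nrm (c - t.c K) := by
      refine (nrm_tri x (pt K t.k t.j 0) c).trans ?_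
      rw [nrm_sub_comm (pt K t.k t.j 0) c]
      exact le_rfl
    have h7 : (2:ℝ) ^ k * nrm (x - pt K t.k t.j 0) ≤ 1 := by
      calc (2:ℝ) ^ k * nrm (x - pt K t.k t.j 0) ≤ 2 ^ t.k * ((2:ℝ) ^ t.k)⁻¹ := by
            apply mul_le_mul (pow_le_pow_right₀ (by norm_num) hk) h5 (nrm_nonneg _) (by positivity)
        _ = 1 := by field_simp
    have h8 : (2:ℝ) ^ k * nrm (x - c) ≤ 1 + 2 ^ k * nrm (c - t.c K) := by
      calc (2:ℝ) ^ k * nrm (x - c)
          ≤ 2 ^ k * (nrm (x - pt K t.k t.j 0) + nrm (c - t.c K)) :=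
            mul_le_mul_of_nonneg_left h6 (by positivity)
        _ ≤ _ := by rw [mul_add]; linarith
    nlinarith [mul_nonneg (pow_nonneg (by norm_num : (0:ℝ) ≤ 2) k) hn2]
  have hmu := h4 K t.k t.j (by have := ht.1; omega) ht.2.1
  unfold mu at hmu
  have e1 : t.len = ((t.I K).card : ℝ) / 2 ^ K := by
    unfold Tile.len Tile.I; exact hmu.symm
  rw [e1]
  unfold aveOn
  rw [div_mul_eq_mul_div, mul_div_assoc', div_le_div_iff_of_pos_right hK]
  calc ((t.I K).card : ℝ) * dk k (c - t.c K) ^ 15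
      = ∑ _x ∈ t.I K, dk k (c - t.c K) ^ 15 := by rw [Finset.sum_const, nsmul_eq_mul]
    _ ≤ ∑ x ∈ t.I K, 2 ^ 15 * dk k (x - c) ^ 15 := Finset.sum_le_sum h1
    _ = _ := by rw [Finset.mul_sum]

/-- sum over tiles with pairwise disjoint time intervals, outside of a set -/
theorem tiles_int (h3 : P_GEO3) (h4 : P_GEO4) {k : ℕ} (D : Finset Tile) (A : Finset (X K))
    (hD : ∀ t ∈ D, t.Ok K ∧ k ≤ t.k) (hdis : ∀ t ∈ D, ∀ t' ∈ D, t ≠ t' → Disjoint (t.I K) (t'.I K))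
    (hA : ∀ t ∈ D, Disjoint A (t.I K)) (c : X K) :
    ∑ t ∈ D, t.len * dk k (c - t.c K) ^ 15 ≤
      2 ^ 15 * aveOn (univ \ A) (fun x => dk k (x - c) ^ 15) := by
  classical
  have hK : (0:ℝ) < 2 ^ K := by positivity
  calc ∑ t ∈ D, t.len * dk k (c - t.c K) ^ 15
      ≤ ∑ t ∈ D, 2 ^ 15 * aveOn (t.I K) (fun x => dk k (x - c) ^ 15) :=
        Finset.sum_le_sum fun t ht => tile_int h3 h4 (hD t ht).1 (hD t ht).2 c
    _ = 2 ^ 15 * aveOn (D.biUnion fun t => t.I K) (fun x => dk k (x - c) ^ 15) := by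
        rw [← Finset.mul_sum]
        unfold aveOn
        rw [Finset.sum_biUnion (fun t ht t' ht' hne => hdis t ht t' ht' hne), Finset.sum_div]
    _ ≤ _ := by
        apply mul_le_mul_of_nonneg_left _ (by positivity)
        unfold aveOn
        rw [div_le_div_iff_of_pos_right hK]
        apply Finset.sum_le_sum_of_subset_of_nonneg
        · intro x hx
          obtain ⟨t, ht, hxt⟩ := Finset.mem_biUnion.1 hx
          refine Finset.mem_sdiff.2 ⟨Finset.mem_univ _, fun hxA => ?_⟩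
          exact Finset.disjoint_left.1 (hA t ht) hxA hxt
        · intro x _ _
          exact pow_nonneg (dk_pos _ _).le _

/-- the distance weight of a child of the top interval -/
noncomputable def wi (M : ℕ) (i : ℕ) : ℝ := (1 + min (i:ℝ) ((M:ℝ) - i))⁻¹

theorem wi_pos {M i : ℕ} (h : i ≤ M) : 0 < wi M i := by
  unfold wi
  have h1 : (i:ℝ) ≤ M := by exact_mod_cast h
  have h2 : (0:ℝ) ≤ min (i:ℝ) ((M:ℝ) - i) := le_min (by positivity) (by linarith)
  positivity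

theorem wi_le_one {M i : ℕ} (h : i ≤ M) : wi M i ≤ 1 := by
  unfold wi
  have h1 : (i:ℝ) ≤ M := by exact_mod_cast h
  have h2 : (0:ℝ) ≤ min (i:ℝ) ((M:ℝ) - i) := le_min (by positivity) (by linarith)
  exact inv_le_one_of_one_le₀ (by linarith)

/-- the integral outside the top interval -/
theorem out_int {C : ℝ} (h1 : ∀ (K k : ℕ) (c : X K), k ≤ K →
    ave (fun x => (1 + 2 ^ k * nrm (x - c))⁻¹ ^ 2) ≤ C * ((2:ℝ) ^ k)⁻¹)
    {kT jT k i : ℕ} (hk : kT ≤ k) (hK : k ≤ K) (hi : i < 2 ^ (k - kT)) (hj : jT < 2 ^ kT) :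
    2 ^ k * aveOn (univ \ dy K kT jT)
      (fun x => dk k (x - pt K k (jT * 2 ^ (k - kT) + i) 0) ^ 15) ≤
      C * wi (2 ^ (k - kT)) i ^ 2 := by
  have hKp : (0:ℝ) < 2 ^ K := by positivity
  have h2k : (0:ℝ) < 2 ^ k := by positivity
  set c := pt K k (jT * 2 ^ (k - kT) + i) 0 with hc
  have hw := wi_pos hi.le
  have hx : ∀ x ∈ (univ \ dy K kT jT : Finset (X K)),
      dk k (x - c) ^ 15 ≤ wi (2 ^ (k - kT)) i ^ 2 * dk k (x - c) ^ 2 := by
    intro x hx
    have h5 := outside hk hK hi hj x (Finset.mem_sdiff.1 hx).2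
    have h6 : dk k (x - c) ≤ wi (2 ^ (k - kT)) i := by
      unfold dk wi
      have h7 : (i:ℝ) ≤ ((2 ^ (k - kT) : ℕ):ℝ) := by exact_mod_cast hi.le
      have h8 : (0:ℝ) ≤ min (i:ℝ) (((2 ^ (k - kT) : ℕ):ℝ) - i) :=
        le_min (by positivity) (by linarith)
      apply inv_anti₀ (by positivity)
      have h9 : min (i:ℝ) (((2 ^ (k - kT) : ℕ):ℝ) - i) ≤ 2 ^ k * nrm (x - c) := by
        have h10 := mul_le_mul_of_nonneg_left h5 h2k.le
        push_cast
        calc min (i:ℝ) (2 ^ (k - kT) - i)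
            = 2 ^ k * (min (i:ℝ) (2 ^ (k - kT) - i) * ((2:ℝ) ^ k)⁻¹) := by field_simp
          _ ≤ _ := h10
      linarith
    have hd := dk_pos k (x - c)
    have hd1 := dk_le_one k (x - c)
    calc dk k (x - c) ^ 15 = dk k (x - c) ^ 2 * dk k (x - c) ^ 2 * dk k (x - c) ^ 11 := by ring
      _ ≤ wi (2 ^ (k - kT)) i ^ 2 * dk k (x - c) ^ 2 * 1 := by
          apply mul_le_mul _ (pow_le_one₀ hd.le hd1) (by positivity) (by positivity)
          exact mul_le_mul_of_nonneg_right (pow_le_pow_left₀ hd.le h6 2) (by positivity)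
      _ = _ := by ring
  have h2 := h1 K k c hK
  have h3 : aveOn (univ \ dy K kT jT) (fun x => dk k (x - c) ^ 15) ≤
      wi (2 ^ (k - kT)) i ^ 2 * ave (fun x => dk k (x - c) ^ 2) := by
    unfold aveOn ave
    rw [mul_div_assoc', div_le_div_iff_of_pos_right hKp]
    calc ∑ x ∈ univ \ dy K kT jT, dk k (x - c) ^ 15
        ≤ ∑ x ∈ univ \ dy K kT jT, wi (2 ^ (k - kT)) i ^ 2 * dk k (x - c) ^ 2 :=
          Finset.sum_le_sum hx
      _ ≤ ∑ x, wi (2 ^ (k - kT)) i ^ 2 * dk k (x - c) ^ 2 := by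
          apply Finset.sum_le_sum_of_subset_of_nonneg (Finset.subset_univ _)
          intro x _ _
          have := dk_pos k (x - c)
          positivity
      _ = _ := by rw [Finset.mul_sum]
  have h4 : ave (fun x => dk k (x - c) ^ 2) ≤ C * ((2:ℝ) ^ k)⁻¹ := h2
  calc 2 ^ k * aveOn (univ \ dy K kT jT) (fun x => dk k (x - c) ^ 15)
      ≤ 2 ^ k * (wi (2 ^ (k - kT)) i ^ 2 * (C * ((2:ℝ) ^ k)⁻¹)) := by
        apply mul_le_mul_of_nonneg_left _ h2k.le
        exact h3.trans (mul_le_mul_of_nonneg_left h4 (by positivity))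
    _ = C * wi (2 ^ (k - kT)) i ^ 2 := by field_simp

theorem sum_inv_sq (M : ℕ) : ∑ i ∈ range (M + 1), ((1:ℝ) + i)⁻¹ ^ 2 ≤ 2 - ((M:ℝ) + 1)⁻¹ := by
  induction M with
  | zero => norm_num
  | succ M ih =>
    rw [Finset.sum_range_succ]
    have hM : (0:ℝ) ≤ M := by positivity
    have : ((1:ℝ) + (M + 1 : ℕ))⁻¹ ^ 2 ≤ ((M:ℝ) + 1)⁻¹ - (((M + 1 : ℕ):ℝ) + 1)⁻¹ := by
      push_cast
      rw [inv_sub_inv (by positivity) (by positivity), ← one_div, div_pow, one_pow,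
        div_le_div_iff₀ (by positivity) (by positivity)]
      nlinarith
    linarith

theorem sum_inv_sq' (M : ℕ) : ∑ i ∈ range M, ((1:ℝ) + i)⁻¹ ^ 2 ≤ 2 := by
  rcases M with _ | M
  · simp
  · refine (sum_inv_sq M).trans ?_
    have : (0:ℝ) ≤ ((M:ℝ) + 1)⁻¹ := by positivity
    linarith

theorem sum_wi (M : ℕ) : ∑ i ∈ range M, wi M i ^ 2 ≤ 4 := by
  have h1 : ∀ i ∈ range M, wi M i ^ 2 ≤ ((1:ℝ) + i)⁻¹ ^ 2 + ((1:ℝ) + (M - 1 - i : ℕ))⁻¹ ^ 2 := by
    intro i hi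
    rw [Finset.mem_range] at hi
    unfold wi
    have e : ((M - 1 - i : ℕ):ℝ) = (M:ℝ) - 1 - i := by
      rw [Nat.sub_sub, Nat.cast_sub (by omega)]; push_cast; ring
    rcases min_cases (i:ℝ) ((M:ℝ) - i) with ⟨h, _⟩ | ⟨h, _⟩
    · rw [h]
      have : (0:ℝ) ≤ ((1:ℝ) + (M - 1 - i : ℕ))⁻¹ ^ 2 := by positivity
      linarith
    · rw [h, e]
      have hMi : (i:ℝ) + 1 ≤ M := by exact_mod_cast hi
      have h5 : ((1:ℝ) + (M - i))⁻¹ ^ 2 ≤ ((1:ℝ) + (M - 1 - i))⁻¹ ^ 2 := by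
        apply pow_le_pow_left₀
        · have : (0:ℝ) ≤ 1 + (M - i) := by linarith
          positivity
        · apply inv_anti₀ (by linarith) (by linarith)
      have : (0:ℝ) ≤ ((1:ℝ) + i)⁻¹ ^ 2 := by positivity
      linarith
  refine (Finset.sum_le_sum h1).trans ?_
  rw [Finset.sum_add_distrib, Finset.sum_range_reflect (fun i : ℕ => ((1:ℝ) + i)⁻¹ ^ 2) M]
  linarith [sum_inv_sq' M]

/-- sum over a lacunary sparse tree -/
theorem tree_sum {T : Finset Tile} {kT jT : ℕ} {ξ : ℤ} (hT : IsLac T kT jT ξ) (hs : Sparse T)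
    (hok : ∀ s ∈ T, s.Ok K) :
    ∑ s ∈ T, s.len * wi (2 ^ (s.k - kT)) (s.j % 2 ^ (s.k - kT)) ^ 2 ≤ 8 * ((2:ℝ) ^ kT)⁻¹ := by
  classical
  have hmaps : ∀ s ∈ T, s.k - kT ∈ range K := by
    intro s hs
    rw [Finset.mem_range]
    have := (hok s hs).1
    omega
  rw [← Finset.sum_fiberwise_of_maps_to hmaps]
  have h1 : ∀ d ∈ range K, ∑ s ∈ T with s.k - kT = d,
      s.len * wi (2 ^ (s.k - kT)) (s.j % 2 ^ (s.k - kT)) ^ 2 ≤
      4 * (((2:ℝ) ^ kT)⁻¹ * (1 / 2) ^ d) := by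
    intro d _
    have h2 : ∀ s ∈ T.filter (fun s => s.k - kT = d),
        s.len * wi (2 ^ (s.k - kT)) (s.j % 2 ^ (s.k - kT)) ^ 2 =
        (((2:ℝ) ^ kT)⁻¹ * (1 / 2) ^ d) * wi (2 ^ d) (s.j % 2 ^ d) ^ 2 := by
      intro s hs
      rw [Finset.mem_filter] at hs
      have hk := (hT s hs.1).1
      rw [hs.2]
      unfold Tile.len
      have : s.k = kT + d := by omega
      rw [this, pow_add, mul_inv, one_div, inv_pow]
    rw [Finset.sum_congr rfl h2, ← Finset.mul_sum, mul_comm (4:ℝ)]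
    apply mul_le_mul_of_nonneg_left _ (by positivity)
    have hinj : Set.InjOn (fun s : Tile => s.j % 2 ^ d) (T.filter (fun s => s.k - kT = d)) := by
      intro s hs' s' hs'' heq
      simp only [Finset.coe_filter, Set.mem_ofPred_eq] at hs' hs''
      have a1 := hT s hs'.1
      have a2 := hT s' hs''.1
      have hk : s.k = s'.k := by have := a1.1; have := a2.1; omega
      have hl : s.l = s'.l := by
        have b1 := (hs s hs'.1 s' hs''.1).2
        have b2 := a1.2.2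
        have b3 := a2.2.2
        rw [← hk] at b3
        rw [abs_le] at b2 b3
        omega
      have hj : s.j = s'.j := by
        have b1 := a1.2.1
        have b2 := a2.2.1
        rw [hs'.2] at b1
        rw [hs''.2] at b2
        have c1 := Nat.div_add_mod s.j (2 ^ d)
        have c2 := Nat.div_add_mod s'.j (2 ^ d)
        simp only at heq
        rw [← c1, ← c2, b1, b2, heq]
      exact Tile.ext hk hj hl
    calc ∑ s ∈ T with s.k - kT = d, wi (2 ^ d) (s.j % 2 ^ d) ^ 2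
        = ∑ i ∈ (T.filter (fun s => s.k - kT = d)).image (fun s : Tile => s.j % 2 ^ d),
            wi (2 ^ d) i ^ 2 := by
          rw [Finset.sum_image hinj]
      _ ≤ ∑ i ∈ range (2 ^ d), wi (2 ^ d) i ^ 2 := by
          apply Finset.sum_le_sum_of_subset_of_nonneg
          · intro i hi
            obtain ⟨s, _, rfl⟩ := Finset.mem_image.1 hi
            exact Finset.mem_range.2 (Nat.mod_lt _ (by positivity))
          · intro i _ _
            positivity
      _ ≤ 4 := sum_wi _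
  refine (Finset.sum_le_sum h1).trans ?_
  rw [← Finset.mul_sum, ← Finset.mul_sum]
  have h3 : ∑ i ∈ range K, ((1:ℝ) / 2) ^ i ≤ 2 := sum_geometric_two_le K
  have h4 : (0:ℝ) ≤ ((2:ℝ) ^ kT)⁻¹ := by positivity
  nlinarith

end Vale.Agent.P091.CH.H106
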