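import Vale.Agent.P091.CH.H106.En

/-!
# Carleson-Hunt on the finite grid: the energy lemma `P_EN`, assembly (helper106)
-/

open Finset

namespace Vale.Agent.P091.CH.H106

open Vale.Agent.P091.CH Vale.Agent.P091.CH.H847

/-- the union of the selected lacunary trees -/
def Sel.U {a : Tile → ℂ} {e : ℝ} {P : Finset Tile} (S : Sel a e P) : Finset Tile :=
  (range S.n).biUnion S.T

theorem Sel.mem_U {a : Tile → ℂ} {e : ℝ} {P : Finset Tile} (S : Sel a e P) {s : Tile} :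
    s ∈ S.U ↔ ∃ i < S.n, s ∈ S.T i := by
  unfold Sel.U; simp

theorem Sel.T_sub {a : Tile → ℂ} {e : ℝ} {P : Finset Tile} (S : Sel a e P) {i : ℕ} (hi : i < S.n)
    {s : Tile} (hs : s ∈ S.T i) : s ∈ P :=
  (Finset.mem_sdiff.1 (S.sub i hi (S.TR i hi hs))).1

theorem Sel.U_sub {a : Tile → ℂ} {e : ℝ} {P : Finset Tile} (S : Sel a e P) : S.U ⊆ P := by
  intro s hs
  obtain ⟨i, hi, h⟩ := S.mem_U.1 hs
  exact S.T_sub hi h

theorem Sel.sum_U {a : Tile → ℂ} {e : ℝ} {P : Finset Tile} (S : Sel a e P) (F : Tile → ℝ) :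
    ∑ s ∈ S.U, F s = ∑ i ∈ range S.n, ∑ s ∈ S.T i, F s := by
  unfold Sel.U
  rw [Finset.sum_biUnion]
  intro i hi i' hi' hne
  simp only [Finset.coe_range, Set.mem_Iio] at hi hi'
  exact Finset.disjoint_of_subset_left (S.TR i hi)
    (Finset.disjoint_of_subset_right (S.TR i' hi') (S.disj i hi i' hi' hne))

theorem Good.mono {K : ℕ} {P U : Finset Tile} (h : Good K P) (hU : U ⊆ P) : Good K U :=
  ⟨fun s hs t ht => h.1 s (hU hs) t (hU ht), fun s hs => h.2 s (hU hs)⟩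

/-- the weight of a tile of a tree -/
noncomputable def ws (kT : ℕ) (s : Tile) : ℝ := wi (2 ^ (s.k - kT)) (s.j % 2 ^ (s.k - kT))

theorem ws_nonneg (kT : ℕ) (s : Tile) : 0 ≤ ws kT s :=
  (wi_pos (Nat.mod_lt _ (by positivity)).le).le

theorem ws_le_one (kT : ℕ) (s : Tile) : ws kT s ≤ 1 :=
  wi_le_one (Nat.mod_lt _ (by positivity)).le

theorem diff_row (k1 : P_KER1) (g1 : P_GEO1) (g3 : P_GEO3) (g4 : P_GEO4) :
    ∀ B : ℝ, ∃ C : ℝ, 0 ≤ C ∧ ∀ m, IsSym B m → ∀ (K r : ℕ), r < 8 →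
    ∀ (a : Tile → ℂ) (e : ℝ) (P : Finset Tile) (S : Sel a e P), Good K P →
    ∀ i < S.n, ∀ s ∈ S.T i,
    ∑ t ∈ S.U with s.k < t.k,
      t.len * ‖aveC (fun x : X K => pk m r s x * (starRingEnd ℂ) (pk m r t x))‖
        ≤ C * ws (S.kT i) s ^ 2 := by
  classical
  intro B
  obtain ⟨C1, hC10, hC1⟩ := H350.bes1'_of k1 g1 g3 B
  obtain ⟨C2, hC2⟩ := g1
  refine ⟨C1 * 2 ^ 15 * |C2|, by positivity, fun m hm K r hr a e P S hG i hi s hs => ?_⟩
  have hsP : s ∈ P := S.T_sub hi hs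
  have hsO := hG.2 s hsP
  have hlac := S.lac i hi s hs
  set D : Finset Tile := S.U.filter (fun t => s.k < t.k ∧ Meet s t) with hD
  have hDm : ∀ t ∈ D, ∃ i' < S.n, t ∈ S.T i' := fun t ht =>
    S.mem_U.1 (Finset.mem_filter.1 ht).1
  have hDk : ∀ t ∈ D, s.k < t.k ∧ Meet s t := fun t ht => (Finset.mem_filter.1 ht).2
  have hDP : ∀ t ∈ D, t ∈ P := fun t ht => S.U_sub (Finset.mem_filter.1 ht).1
  -- tiles that do not meet
  have h1 : ∑ t ∈ S.U with s.k < t.k,
      t.len * ‖aveC (fun x : X K => pk m r s x * (starRingEnd ℂ) (pk m r t x))‖ =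
      ∑ t ∈ D, t.len * ‖aveC (fun x : X K => pk m r s x * (starRingEnd ℂ) (pk m r t x))‖ := by
    symm
    apply Finset.sum_subset
    · intro t ht
      rw [hD, Finset.mem_filter] at ht
      exact Finset.mem_filter.2 ⟨ht.1, ht.2.1⟩
    · intro t ht ht'
      rw [Finset.mem_filter] at ht
      have hnm : ¬ Meet s t := fun hm' => ht' (Finset.mem_filter.2 ⟨ht.1, ht.2, hm'⟩)
      have hsep : (s.l - 2) * 2 ^ s.k ≤ (t.l - 10) * 2 ^ t.k ∨
          (t.l - 2) * 2 ^ t.k ≤ (s.l - 10) * 2 ^ s.k := by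
        unfold Meet lo Vale.Agent.P091.CH.H106.hi at hnm
        by_contra hcon
        push Not at hcon
        exact hnm hcon
      rw [H350.bes2' (K := K) hm hm r s t hsep, norm_zero, mul_zero]
  rw [h1]
  have h2 : ∀ t ∈ D, t.len * ‖aveC (fun x : X K => pk m r s x * (starRingEnd ℂ) (pk m r t x))‖ ≤
      C1 * 2 ^ s.k * (t.len * dk s.k (s.c K - t.c K) ^ 15) := by
    intro t ht
    have h3 := hC1 m m hm hm K r hr s t hsO (hG.2 t (hDP t ht)) (hDk t ht).1.le
    have h4 : ‖aveC (fun x : X K => pk m r s x * (starRingEnd ℂ) (pk m r t x))‖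
        ≤ ave (fun x : X K => ‖pk m r s x‖ * ‖pk m r t x‖) := by
      refine (H350.norm_aveC_le _).trans (le_of_eq ?_)
      congr 1
      funext x
      rw [norm_mul, Complex.norm_conj]
    have hl : 0 ≤ t.len := (H350.len_pos t).le
    calc t.len * ‖aveC (fun x : X K => pk m r s x * (starRingEnd ℂ) (pk m r t x))‖
        ≤ t.len * (C1 * 2 ^ s.k * dk s.k (s.c K - t.c K) ^ 15) :=
          mul_le_mul_of_nonneg_left (h4.trans h3) hl
      _ = _ := by ring
  refine (Finset.sum_le_sum h2).trans ?_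
  rw [← Finset.mul_sum]
  have h5 := tiles_int (K := K) g3 g4 (k := s.k) D (dy K (S.kT i) (S.jT i))
    (fun t ht => ⟨hG.2 t (hDP t ht), (hDk t ht).1.le⟩)
    (fun t ht t' ht' hne => by
      obtain ⟨i1, hi1, ht1⟩ := hDm t ht
      obtain ⟨i2, hi2, ht2⟩ := hDm t' ht'
      exact sel_disj S hG hi1 hi2 ht1 ht2 (hDk t ht).1 (hDk t' ht').1 hsP (hDk t ht).2
        (hDk t' ht').2 hne)
    (fun t ht => by
      obtain ⟨i1, hi1, ht1⟩ := hDm t ht
      exact sel_out S hG hi hi1 hs ht1 (hDk t ht).1 (hDk t ht).2)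
    (s.c K)
  have hsk := hsO.1
  have hsj := hsO.2.1
  have hdm := Nat.div_add_mod s.j (2 ^ (s.k - S.kT i))
  rw [hlac.2.1] at hdm
  have hjT : S.jT i < 2 ^ S.kT i := by
    rw [← hlac.2.1]
    apply Nat.div_lt_of_lt_mul
    rw [← pow_add]
    have : s.k - S.kT i + S.kT i = s.k := by have := hlac.1; omega
    rw [this]
    exact hsj
  have h6 := out_int (K := K) hC2 (kT := S.kT i) (jT := S.jT i) (k := s.k)
    (i := s.j % 2 ^ (s.k - S.kT i))
    hlac.1 (by omega) (Nat.mod_lt _ (by positivity)) hjT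
  rw [mul_comm (S.jT i), hdm] at h6
  have hws := ws_nonneg (S.kT i) s
  calc C1 * 2 ^ s.k * ∑ t ∈ D, t.len * dk s.k (s.c K - t.c K) ^ 15
      ≤ C1 * 2 ^ s.k * (2 ^ 15 * aveOn (univ \ dy K (S.kT i) (S.jT i))
          (fun x => dk s.k (x - s.c K) ^ 15)) :=
        mul_le_mul_of_nonneg_left h5 (by positivity)
    _ = C1 * 2 ^ 15 * (2 ^ s.k * aveOn (univ \ dy K (S.kT i) (S.jT i))
          (fun x => dk s.k (x - s.c K) ^ 15)) := by ring
    _ ≤ C1 * 2 ^ 15 * (C2 * ws (S.kT i) s ^ 2) := by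
        apply mul_le_mul_of_nonneg_left _ (by positivity)
        exact h6
    _ ≤ C1 * 2 ^ 15 * (|C2| * ws (S.kT i) s ^ 2) := by
        apply mul_le_mul_of_nonneg_left _ (by positivity)
        exact mul_le_mul_of_nonneg_right (le_abs_self _) (by positivity)
    _ = _ := by ring

theorem pair_bound (k1 : P_KER1) (g1 : P_GEO1) (g2 : P_GEO2) (g3 : P_GEO3) (g4 : P_GEO4) :
    ∀ B : ℝ, ∃ C : ℝ, 0 ≤ C ∧ ∀ m, IsSym B m → ∀ (K r : ℕ), r < 8 →
    ∀ (a : Tile → ℂ) (e : ℝ) (P : Finset Tile) (S : Sel a e P), Good K P → 0 < e →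
    (∀ t ∈ P, ‖a t‖ ≤ e) →
    ∑ s ∈ S.U, ∑ t ∈ S.U, (s.len * ‖a s‖) * (t.len * ‖a t‖) *
        ‖aveC (fun x : X K => pk m r s x * (starRingEnd ℂ) (pk m r t x))‖ ≤
      C * ∑ s ∈ S.U, s.len * ‖a s‖ ^ 2 := by
  classical
  intro B
  obtain ⟨C1, hC10, hC1⟩ := row_same k1 g1 g2 g3 B
  obtain ⟨C2, hC20, hC2⟩ := diff_row k1 g1 g3 g4 B
  refine ⟨C1 + 33 * C2, by positivity, fun m hm K r hr a e P S hG he ha => ?_⟩
  set G : Tile → Tile → ℝ := fun s t =>
    ‖aveC (fun x : X K => pk m r s x * (starRingEnd ℂ) (pk m r t x))‖ with hGdef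
  have hG0 : ∀ s t, 0 ≤ G s t := fun s t => norm_nonneg _
  have hGs : ∀ s t, G s t = G t s := fun s t => gram_symm (fun s => pk m r s) s t
  have hl : ∀ s : Tile, 0 ≤ s.len := fun s => (H350.len_pos s).le
  set F : Tile → Tile → ℝ := fun s t => (s.len * ‖a s‖) * (t.len * ‖a t‖) * G s t with hF
  have hFs : ∀ s t, F s t = F t s := by
    intro s t
    simp only [hF]
    rw [hGs s t]; ring
  set Bt : ℝ := ∑ s ∈ S.U, s.len * ‖a s‖ ^ 2 with hBt
  -- same scale
  have hsame : ∑ s ∈ S.U, ∑ t ∈ S.U with t.k = s.k, F s t ≤ C1 * Bt := by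
    have e1 : ∑ s ∈ S.U, ∑ t ∈ S.U with t.k = s.k, F s t ≤
        ∑ s ∈ S.U, ∑ t ∈ S.U with t.k = s.k, ((s.len * ‖a s‖ ^ 2) / 2 * (t.len * G s t) +
          (t.len * ‖a t‖ ^ 2) / 2 * (s.len * G s t)) := by
      refine Finset.sum_le_sum fun s _ => Finset.sum_le_sum fun t _ => ?_
      have h1 : 0 ≤ (s.len * t.len * G s t) * (‖a s‖ - ‖a t‖) ^ 2 := by
        have := hl s
        have := hl t
        have := hG0 s t
        positivity
      simp only [hF]
      nlinarith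
    refine e1.trans ?_
    simp_rw [Finset.sum_add_distrib]
    have e2 : ∑ s ∈ S.U, ∑ t ∈ S.U with t.k = s.k, (t.len * ‖a t‖ ^ 2) / 2 * (s.len * G s t) =
        ∑ s ∈ S.U, ∑ t ∈ S.U with t.k = s.k, (s.len * ‖a s‖ ^ 2) / 2 * (t.len * G s t) := by
      simp_rw [Finset.sum_filter]
      rw [Finset.sum_comm]
      refine Finset.sum_congr rfl fun s _ => Finset.sum_congr rfl fun t _ => ?_
      rw [hGs t s]
      by_cases h : s.k = t.k
      · rw [if_pos h, if_pos h.symm]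
      · rw [if_neg h, if_neg (fun h' => h h'.symm)]
    rw [e2]
    have e3 : ∑ s ∈ S.U, ∑ t ∈ S.U with t.k = s.k, (s.len * ‖a s‖ ^ 2) / 2 * (t.len * G s t) ≤
        ∑ s ∈ S.U, (s.len * ‖a s‖ ^ 2) / 2 * C1 := by
      refine Finset.sum_le_sum fun s hs => ?_
      rw [← Finset.mul_sum]
      refine mul_le_mul_of_nonneg_left (hC1 m hm K r hr S.U (Good.mono hG S.U_sub) s hs) ?_
      have := hl s
      positivity
    have e4 : ∑ s ∈ S.U, (s.len * ‖a s‖ ^ 2) / 2 * C1 = Bt * C1 / 2 := by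
      rw [← Finset.sum_mul, ← Finset.sum_div]
      ring
    linarith
  -- different scales
  have hdiff : ∑ s ∈ S.U, ∑ t ∈ S.U with s.k < t.k, F s t ≤ 33 / 2 * C2 * Bt := by
    rw [hBt, S.sum_U, S.sum_U, Finset.mul_sum]
    refine Finset.sum_le_sum fun i hi => ?_
    rw [Finset.mem_range] at hi
    have e1 : ∀ s ∈ S.T i, ∑ t ∈ S.U with s.k < t.k, F s t ≤
        C2 / 2 * (s.len * ‖a s‖ ^ 2 + e ^ 2 * (s.len * ws (S.kT i) s ^ 2)) := by
      intro s hs
      have h1 : ∀ t ∈ S.U.filter (fun t => s.k < t.k), F s t ≤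
          (s.len * ‖a s‖ * e) * (t.len * G s t) := by
        intro t ht
        have hta := ha t (S.U_sub (Finset.mem_filter.1 ht).1)
        simp only [hF]
        have := hl s
        have := hl t
        have := hG0 s t
        calc s.len * ‖a s‖ * (t.len * ‖a t‖) * G s t
            = (s.len * ‖a s‖ * (t.len * G s t)) * ‖a t‖ := by ring
          _ ≤ (s.len * ‖a s‖ * (t.len * G s t)) * e :=
              mul_le_mul_of_nonneg_left hta (by positivity)
          _ = _ := by ring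
      refine (Finset.sum_le_sum h1).trans ?_
      rw [← Finset.mul_sum]
      have h2 := hC2 m hm K r hr a e P S hG i hi s hs
      have hw0 := ws_nonneg (S.kT i) s
      have hw1 := ws_le_one (S.kT i) s
      have hls := hl s
      have h3 : (s.len * ‖a s‖ * e) * ∑ t ∈ S.U with s.k < t.k, t.len * G s t ≤
          (s.len * ‖a s‖ * e) * (C2 * ws (S.kT i) s ^ 2) :=
        mul_le_mul_of_nonneg_left h2 (by positivity)
      refine h3.trans ?_
      set w := ws (S.kT i) s with hw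
      have h4 : w ^ 4 ≤ w ^ 2 := pow_le_pow_of_le_one hw0 hw1 (by norm_num)
      have h5 : 2 * (‖a s‖ * e * w ^ 2) ≤ ‖a s‖ ^ 2 + e ^ 2 * w ^ 4 := by
        nlinarith [sq_nonneg (‖a s‖ - e * w ^ 2)]
      have h6 : 2 * (‖a s‖ * e * w ^ 2) ≤ ‖a s‖ ^ 2 + e ^ 2 * w ^ 2 := by
        nlinarith [mul_le_mul_of_nonneg_left h4 (sq_nonneg e)]
      have h7 := mul_le_mul_of_nonneg_left h6 (mul_nonneg hC20 hls)
      nlinarith
    refine (Finset.sum_le_sum e1).trans ?_
    rw [← Finset.mul_sum, Finset.sum_add_distrib, ← Finset.mul_sum]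
    have h8 := tree_sum (K := K) (S.lac i hi)
      (fun s hs t ht => hG.1 s (S.T_sub hi hs) t (S.T_sub hi ht))
      (fun s hs => hG.2 s (S.T_sub hi hs))
    have h9 := S.big i hi
    have h10 : e ^ 2 * ∑ s ∈ S.T i, s.len * ws (S.kT i) s ^ 2 ≤
        32 * ∑ s ∈ S.T i, s.len * ‖a s‖ ^ 2 := by
      have h11 : e ^ 2 * ∑ s ∈ S.T i, s.len * ws (S.kT i) s ^ 2 ≤
          e ^ 2 * (8 * ((2:ℝ) ^ (S.kT i))⁻¹) := mul_le_mul_of_nonneg_left h8 (sq_nonneg e)
      nlinarith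
    nlinarith
  -- total
  have hsplit : ∀ s ∈ S.U, ∑ t ∈ S.U, F s t =
      ∑ t ∈ S.U with t.k = s.k, F s t + (∑ t ∈ S.U with s.k < t.k, F s t +
        ∑ t ∈ S.U with t.k < s.k, F s t) := by
    intro s _
    simp_rw [Finset.sum_filter]
    rw [← Finset.sum_add_distrib, ← Finset.sum_add_distrib]
    refine Finset.sum_congr rfl fun t _ => ?_
    rcases lt_trichotomy t.k s.k with h | h | h
    · rw [if_neg h.ne, if_neg h.not_gt, if_pos h]; ring
    · rw [if_pos h, if_neg h.ge.not_gt, if_neg h.le.not_gt]; ring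
    · rw [if_neg h.ne', if_pos h, if_neg h.not_gt]; ring
  have hcomm : ∑ s ∈ S.U, ∑ t ∈ S.U with t.k < s.k, F s t =
      ∑ s ∈ S.U, ∑ t ∈ S.U with s.k < t.k, F s t := by
    simp_rw [Finset.sum_filter]
    rw [Finset.sum_comm]
    refine Finset.sum_congr rfl fun s _ => Finset.sum_congr rfl fun t _ => ?_
    rw [hFs t s]
  rw [Finset.sum_congr rfl hsplit, Finset.sum_add_distrib, Finset.sum_add_distrib, hcomm]
  linarith

/-- **ENERGY** from the geometric rows -/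
theorem p_EN_of (k1 : P_KER1) (g1 : P_GEO1) (g2 : P_GEO2) (g3 : P_GEO3) (g4 : P_GEO4) : P_EN := by
  intro B
  obtain ⟨C, hC0, hC⟩ := pair_bound k1 g1 g2 g3 g4 B
  refine ⟨4 * C, fun m hm K r hr f P e hG he hE => ?_⟩
  set m' : ℕ → ℤ → ℤ → ℂ := fun k l ξ => (starRingEnd ℂ) (m k l ξ) with hm'
  obtain ⟨S⟩ := exists_sel (co m r f) e P
  have hpair := hC m' (H350.IsSym_conj hm) K r hr (co m r f) e P S hG he
    (fun t ht => single_le he.le hE ht)
  set g : X K → ℂ := fun x => ∑ s ∈ S.U, s.len * co m r f s * pk m' r s x with hg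
  set A : ℝ := ∑ s ∈ S.U, s.len * ‖co m r f s‖ ^ 2 with hA
  have hA0 : 0 ≤ A := Finset.sum_nonneg fun s _ => by
    have := (H350.len_pos s).le
    positivity
  have h3 : ave (fun x : X K => ‖g x‖ ^ 2) ≤ C * A :=
    (form_le S.U (fun s => s.len) (fun s => (H350.len_pos s).le) (co m r f)
      (fun s => pk m' r s)).trans hpair
  have h4 : (A : ℂ) = aveC (fun x => f x * (starRingEnd ℂ) (g x)) := by
    have e : ∀ x : X K, f x * (starRingEnd ℂ) (g x)
        = ∑ s ∈ S.U, (s.len * (starRingEnd ℂ) (co m r f s)) *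
            (f x * (starRingEnd ℂ) (pk m' r s x)) := by
      intro x
      simp only [hg]
      rw [map_sum, Finset.mul_sum]
      refine Finset.sum_congr rfl fun s _ => ?_
      rw [map_mul, map_mul, Complex.conj_ofReal]
      ring
    simp_rw [e]
    rw [aveC_sum, hA]
    push_cast
    refine Finset.sum_congr rfl fun s _ => ?_
    rw [aveC_mul_left, ← H350.co_eq, mul_assoc, mul_comm ((starRingEnd ℂ) (co m r f s)),
      Complex.mul_conj, Complex.normSq_eq_norm_sq]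
    push_cast
    rfl
  have h5 : A ≤ ave (fun x => ‖f x‖ * ‖g x‖) := by
    have e : A = ‖(A : ℂ)‖ := by
      rw [Complex.norm_real, Real.norm_eq_abs, abs_of_nonneg hA0]
    rw [e, h4]
    refine (H350.norm_aveC_le _).trans (le_of_eq ?_)
    congr 1
    funext x
    rw [norm_mul, Complex.norm_conj]
  have hf0 : 0 ≤ ave (fun x => ‖f x‖ ^ 2) := H350.ave_nonneg fun x => by positivity
  have h6 : A ^ 2 ≤ ave (fun x => ‖f x‖ ^ 2) * (C * A) := by
    have e1 : A ^ 2 ≤ ave (fun x => ‖f x‖ * ‖g x‖) ^ 2 := by gcongr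
    refine e1.trans ((H350.ave_cs _ _).trans ?_)
    exact mul_le_mul_of_nonneg_left h3 hf0
  have h7 : A ≤ C * ave (fun x => ‖f x‖ ^ 2) := by
    rcases hA0.eq_or_lt with h | h
    · rw [← h]
      exact mul_nonneg hC0 hf0
    · refine le_of_mul_le_mul_right ?_ h
      nlinarith
  refine ⟨S.L, ⟨range S.n, S.R, S.kT, S.jT, S.ξ⟩, ?_, S.low, ?_⟩
  · exact { light := S.light
            sub := fun i hi => S.sub i (Finset.mem_range.1 hi)
            tree := fun i hi => S.tree i (Finset.mem_range.1 hi)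
            cover := fun s hs => (S.cover s hs).imp id
              (fun ⟨i, hi, h⟩ => ⟨i, Finset.mem_range.2 hi, h⟩)
            disj := fun i hi i' hi' hne =>
              S.disj i (Finset.mem_range.1 hi) i' (Finset.mem_range.1 hi') hne }
  · show (∑ i ∈ range S.n, ((2:ℝ) ^ (S.kT i))⁻¹) * e ^ 2 ≤ _
    have h8 : (∑ i ∈ range S.n, ((2:ℝ) ^ (S.kT i))⁻¹) * e ^ 2 ≤ 4 * A := by
      rw [hA, S.sum_U, Finset.sum_mul, Finset.mul_sum]
      refine Finset.sum_le_sum fun i hi => ?_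
      have := S.big i (Finset.mem_range.1 hi)
      nlinarith
    calc _ ≤ 4 * A := h8
      _ ≤ 4 * (C * ave (fun x => ‖f x‖ ^ 2)) := by linarith
      _ = _ := by ring

/-- **ENERGY** -/
theorem p_EN : P_EN := p_EN_of H847.ker1 H69.pGEO1 H69.pGEO2 H69.pGEO3 H69.pGEO4

end Vale.Agent.P091.CH.H106
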