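import Vale.Agent.P091.CH.H106.En2

/-!
# Carleson-Hunt on the finite grid: FAR, def-free form (helper106)

Tiles of a tree which are only seen by points far from the maximal time intervals of the tree.
-/

open Finset

namespace Vale.Agent.P091.CH.H106

open Vale.Agent.P091.CH Vale.Agent.P091.CH.H847

variable {K : ℕ}

/-- `I_s ⊆ I_t` -/
def Above (s t : Tile) : Prop := t.k ≤ s.k ∧ s.j / 2 ^ (s.k - t.k) = t.j

theorem above_self (s : Tile) : Above s s := by
  unfold Above; simp

/-- two dyadic intervals through one point are nested -/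
theorem above_of_mem {s t : Tile} (hk : t.k ≤ s.k) (hK : s.k ≤ K) {x : X K} (hs : x ∈ s.I K)
    (ht : x ∈ t.I K) : Above s t := by
  refine ⟨hk, ?_⟩
  unfold Tile.I at hs ht
  rw [mem_dy] at hs ht
  rw [← hs, Nat.div_div_eq_div_mul, ← pow_add, ← ht]
  congr 2
  omega

theorem mem_of_above {s t : Tile} (h : Above s t) (hK : s.k ≤ K) {x : X K} (hs : x ∈ s.I K) :
    x ∈ t.I K := by
  unfold Tile.I at hs ⊢
  rw [mem_dy] at hs ⊢
  rw [← h.2, ← hs, Nat.div_div_eq_div_mul, ← pow_add]
  congr 2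
  have := h.1
  omega

/-- the smallest scale of a tile of `T` above `s` -/
noncomputable def mk (T : Finset Tile) (s : Tile) : ℕ :=
  sInf {k | ∃ t ∈ T, Above s t ∧ t.k = k}

theorem mk_spec {T : Finset Tile} {s : Tile} (hs : s ∈ T) :
    ∃ t ∈ T, Above s t ∧ t.k = mk T s := by
  have h : {k | ∃ t ∈ T, Above s t ∧ t.k = k}.Nonempty := ⟨s.k, s, hs, above_self s, rfl⟩
  exact Nat.sInf_mem h

theorem mk_le {T : Finset Tile} {s t : Tile} (ht : t ∈ T) (h : Above s t) : mk T s ≤ t.k :=
  Nat.sInf_le ⟨t, ht, h, rfl⟩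

theorem mk_le_self {T : Finset Tile} {s : Tile} (hs : s ∈ T) : mk T s ≤ s.k :=
  mk_le hs (above_self s)

theorem mk_ge {T : Finset Tile} {s : Tile} (hs : s ∈ T) {k0 : ℕ}
    (h : ∀ t ∈ T, Above s t → k0 ≤ t.k) : k0 ≤ mk T s := by
  obtain ⟨t, ht, h1, h2⟩ := mk_spec hs
  rw [← h2]
  exact h t ht h1

/-- packing: the sum of the lengths with a decaying weight -/
theorem pack {T : Finset Tile} {kT jT : ℕ} {ξ : ℤ} (hT : IsTree T kT jT ξ)
    (hok : ∀ s ∈ T, s.Ok K) :
    ∑ s ∈ T, s.len * (1 / 2) ^ (s.k - mk T s) ≤ 46 * ((2:ℝ) ^ kT)⁻¹ := by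
  classical
  rcases T.eq_empty_or_nonempty with h0 | ⟨s0, hs0⟩
  · rw [h0, Finset.sum_empty]; positivity
  have hK : (0:ℝ) < 2 ^ K := by positivity
  have hsK : ∀ s ∈ T, s.k ≤ K := fun s hs => by have := (hok s hs).1; omega
  have hjT : jT < 2 ^ kT := by
    have h1 := hT s0 hs0
    have h2 := (hok s0 hs0).2.1
    rw [← h1.2.1]
    apply Nat.div_lt_of_lt_mul
    rw [← pow_add]
    have : s0.k - kT + kT = s0.k := by have := h1.1; omega
    rw [this]
    exact h2
  have hkT : kT ≤ K := (hT s0 hs0).1.trans (hsK s0 hs0)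
  -- lengths as counts
  have hlen : ∀ s ∈ T, s.len = ((s.I K).card : ℝ) / 2 ^ K := by
    intro s hs
    have := H69.pGEO4 K s.k s.j (hsK s hs) (hok s hs).2.1
    unfold mu at this
    unfold Tile.len Tile.I
    exact this.symm
  have hcard : ((dy K kT jT).card : ℝ) / 2 ^ K = ((2:ℝ) ^ kT)⁻¹ := H69.pGEO4 K kT jT hkT hjT
  have h1 : ∑ s ∈ T, s.len * (1 / 2) ^ (s.k - mk T s) =
      (∑ s ∈ T, ∑ x, if x ∈ s.I K then ((1:ℝ) / 2) ^ (s.k - mk T s) else 0) / 2 ^ K := by
    rw [Finset.sum_div]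
    refine Finset.sum_congr rfl fun s hs => ?_
    rw [hlen s hs, ← Finset.sum_filter, Finset.sum_const, nsmul_eq_mul,
      Finset.filter_mem_eq_inter, Finset.univ_inter]
    ring
  rw [h1, Finset.sum_comm]
  have h2 : ∀ x : X K, (∑ s ∈ T, if x ∈ s.I K then ((1:ℝ) / 2) ^ (s.k - mk T s) else 0) ≤
      if x ∈ dy K kT jT then 46 else 0 := by
    intro x
    rw [← Finset.sum_filter]
    set F := T.filter (fun s => x ∈ s.I K) with hF
    rcases F.eq_empty_or_nonempty with hF0 | hF0
    · rw [hF0, Finset.sum_empty]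
      split_ifs <;> norm_num
    · -- the smallest scale at `x`
      obtain ⟨t, ht, htm⟩ := Finset.exists_min_image F (fun s => s.k) hF0
      rw [hF, Finset.mem_filter] at ht
      have hxT : x ∈ dy K kT jT := by
        have h3 := hT t ht.1
        have h4 : Above t ⟨kT, jT, 0⟩ := ⟨h3.1, h3.2.1⟩
        exact mem_of_above h4 (hsK t ht.1) ht.2
      rw [if_pos hxT]
      have h3 : ∀ s ∈ F, ((1:ℝ) / 2) ^ (s.k - mk T s) = (1 / 2) ^ (s.k - t.k) := by
        intro s hs
        have hs' := Finset.mem_filter.1 hs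
        have h4 : Above s t := above_of_mem (htm s hs) (hsK s hs'.1) hs'.2 ht.2
        have h5 : mk T s = t.k := by
          refine le_antisymm (mk_le ht.1 h4) (mk_ge hs'.1 fun t' ht' hab => ?_)
          apply htm
          exact Finset.mem_filter.2 ⟨ht', mem_of_above hab (hsK s hs'.1) hs'.2⟩
        rw [h5]
      rw [Finset.sum_congr rfl h3]
      -- fibers over the scale
      have hmaps : ∀ s ∈ F, s.k - t.k ∈ range (K + 1) := by
        intro s hs
        have := hsK s (Finset.mem_filter.1 hs).1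
        rw [Finset.mem_range]; omega
      rw [← Finset.sum_fiberwise_of_maps_to hmaps]
      have h6 : ∀ d ∈ range (K + 1), ∑ s ∈ F with s.k - t.k = d, ((1:ℝ) / 2) ^ (s.k - t.k) ≤
          23 * (1 / 2) ^ d := by
        intro d _
        have h7 : ∑ s ∈ F with s.k - t.k = d, ((1:ℝ) / 2) ^ (s.k - t.k) =
            ((F.filter (fun s => s.k - t.k = d)).card : ℝ) * (1 / 2) ^ d := by
          rw [Finset.sum_congr rfl (g := fun _ => ((1:ℝ) / 2) ^ d)
            (fun s hs => by rw [(Finset.mem_filter.1 hs).2]), Finset.sum_const, nsmul_eq_mul]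
        rw [h7]
        apply mul_le_mul_of_nonneg_right _ (by positivity)
        have h8 : (F.filter (fun s => s.k - t.k = d)).card ≤ 23 := by
          have h9 : (F.filter (fun s => s.k - t.k = d)).card ≤
              (Finset.Icc (ξ / 2 ^ (t.k + d) - 11) (ξ / 2 ^ (t.k + d) + 11)).card := by
            apply Finset.card_le_card_of_injOn (fun s => s.l)
            · intro s hs
              have hs1 := Finset.mem_filter.1 (Finset.mem_coe.1 hs)
              have hs2 := Finset.mem_filter.1 hs1.1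
              have h10 := (hT s hs2.1).2.2
              have h11 : s.k = t.k + d := by
                have := htm s hs1.1
                have := hs1.2
                omega
              rw [h11, abs_le] at h10
              rw [Finset.coe_Icc]
              constructor
              · show _ ≤ s.l
                linarith [h10.1]
              · show s.l ≤ _
                linarith [h10.2]
            · intro s hs s' hs' hl
              have hs1 := Finset.mem_filter.1 (Finset.mem_coe.1 hs)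
              have hs2 := Finset.mem_filter.1 hs1.1
              have hs1' := Finset.mem_filter.1 (Finset.mem_coe.1 hs')
              have hs2' := Finset.mem_filter.1 hs1'.1
              have hk : s.k = s'.k := by
                have := htm s hs1.1
                have := hs1.2
                have := htm s' hs1'.1
                have := hs1'.2
                omega
              have hj : s.j = s'.j := by
                have e1 := hs2.2
                have e2 := hs2'.2
                unfold Tile.I at e1 e2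
                rw [mem_dy] at e1 e2
                rw [← e1, ← e2, hk]
              exact Tile.ext hk hj hl
          refine h9.trans ?_
          rw [Int.card_Icc]
          omega
        exact_mod_cast h8
      refine (Finset.sum_le_sum h6).trans ?_
      rw [← Finset.mul_sum]
      have := sum_geometric_two_le (K + 1)
      linarith
  calc (∑ x, ∑ s ∈ T, if x ∈ s.I K then ((1:ℝ) / 2) ^ (s.k - mk T s) else 0) / 2 ^ K
      ≤ (∑ x : X K, if x ∈ dy K kT jT then (46:ℝ) else 0) / 2 ^ K := by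
        rw [div_le_div_iff_of_pos_right hK]
        exact Finset.sum_le_sum fun x _ => h2 x
    _ = 46 * (((dy K kT jT).card : ℝ) / 2 ^ K) := by
        rw [← Finset.sum_filter, Finset.sum_const, nsmul_eq_mul, Finset.filter_mem_eq_inter,
          Finset.univ_inter]
        ring
    _ = _ := by rw [hcard]

/-- decay of a packet around the corner of the tile -/
theorem pk_le : ∀ B : ℝ, ∃ C : ℝ, 0 ≤ C ∧ ∀ m, IsSym B m → ∀ (K r : ℕ), r < 8 → ∀ s : Tile,
    s.Ok K → ∀ x : X K, ‖pk m r s x‖ ≤ C * 2 ^ s.k * dk s.k (x - s.c K) ^ 20 := by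
  intro B
  obtain ⟨C1, hC1⟩ := H847.ker1 B
  refine ⟨|C1| * 2 ^ 20, by positivity, fun m hm K r hr s hs x => ?_⟩
  have bs := H350.Ok_bounds hs
  have h1 := hC1 m hm K s.k s.l bs.2.1 bs.2.2.1 bs.2.2.2 (x - pt K s.k s.j r)
  have h2 := H350.nrm_c_pt H69.pGEO3 hr hs
  have hp : (0:ℝ) < 2 ^ s.k := by positivity
  have h3 := H350.shift_wt (a := (2:ℝ) ^ s.k) (b := 2 ^ s.k) (u := nrm (x - pt K s.k s.j r))
    (v := ((2:ℝ) ^ s.k)⁻¹) (w := nrm (x - s.c K)) 20 hp.le le_rfl (nrm_nonneg _) (by positivity)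
    (nrm_nonneg _) (by
      have e1 := nrm_tri x (pt K s.k s.j r) (s.c K)
      have e2 := nrm_sub_comm (pt K s.k s.j r) (s.c K)
      linarith)
  have e : (1 + (2:ℝ) ^ s.k * ((2:ℝ) ^ s.k)⁻¹) = 2 := by
    field_simp
    norm_num
  rw [e] at h3
  have h4 : C1 * 2 ^ s.k ≤ |C1| * 2 ^ s.k := mul_le_mul_of_nonneg_right (le_abs_self _) hp.le
  calc ‖pk m r s x‖ ≤ C1 * 2 ^ s.k * (1 + 2 ^ s.k * nrm (x - pt K s.k s.j r))⁻¹ ^ 20 := h1
    _ ≤ |C1| * 2 ^ s.k * (1 + 2 ^ s.k * nrm (x - pt K s.k s.j r))⁻¹ ^ 20 := by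
        apply mul_le_mul_of_nonneg_right h4
        have := nrm_nonneg (x - pt K s.k s.j r)
        positivity
    _ ≤ |C1| * 2 ^ s.k * (2 ^ 20 * (1 + 2 ^ s.k * nrm (x - s.c K))⁻¹ ^ 20) :=
        mul_le_mul_of_nonneg_left h3 (by positivity)
    _ = _ := by unfold dk; ring

/-- **FAR**, general form. `w s` = the `N`-side weight of the tile `s` (with the truncation);
it lives on `N x ∈ ω_s` and only sees points at distance at least `λ |I_t|` from every tile
`t ∈ T` above `s`. -/
theorem far_gen : ∀ B : ℝ, ∃ C : ℝ, 0 ≤ C ∧ ∀ m, IsSym B m → ∀ (K r : ℕ), r < 8 →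
    ∀ (a : Tile → ℂ) (w : Tile → X K → ℂ) (N : X K → ℤ) (T : Finset Tile) (kT jT : ℕ) (ξ : ℤ)
      (e μ lam : ℝ), 0 ≤ e → 0 ≤ μ → 4 ≤ lam → (∀ s ∈ T, s.Ok K) → IsTree T kT jT ξ →
      (∀ s ∈ T, ‖a s‖ ≤ e) → MsLe univ N T μ →
      (∀ s ∈ T, ∀ x, ‖w s x‖ ≤ 1) →
      (∀ s ∈ T, ∀ x, w s x ≠ 0 → N x / 2 ^ s.k = s.l ∧
        ∀ t ∈ T, Above s t → lam ≤ 1 + 2 ^ t.k * nrm (x - t.c K)) →
      ∑ s ∈ T, s.len * ‖a s‖ * ‖aveC (fun x => w s x * pk m r s x)‖ ≤
        C * e * μ * (lam⁻¹) ^ 10 * ((2:ℝ) ^ kT)⁻¹ := by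
  intro B
  obtain ⟨C1, hC10, hC1⟩ := pk_le B
  refine ⟨C1 * 2 ^ 10 * 46, by positivity,
    fun m hm K r hr a w N T kT jT ξ e μ lam he hμ hlam hok hT ha hms hw1 hw => ?_⟩
  have hK : (0:ℝ) < 2 ^ K := by positivity
  have hlam0 : 0 < lam := by linarith
  have hterm : ∀ s ∈ T, s.len * ‖a s‖ * ‖aveC (fun x => w s x * pk m r s x)‖ ≤
      (C1 * 2 ^ 10 * e * μ * (lam⁻¹) ^ 10) * (s.len * (1 / 2) ^ (s.k - mk T s)) := by
    intro s hs
    obtain ⟨t, ht, hab, htk⟩ := mk_spec hs
    have hsO := hok s hs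
    set d : ℕ := s.k - mk T s with hd
    have hdk : s.k = t.k + d := by have := hab.1; omega
    -- pointwise bound
    have hpt : ∀ x, ‖w s x * pk m r s x‖ ≤ C1 * 2 ^ s.k * (2 * lam⁻¹ * (1 / 2) ^ d) ^ 10 *
        (if x ∈ (univ : Finset (X K)) ∧ N x / 2 ^ s.k = s.l then wt s.k (s.c K) x else 0) := by
      intro x
      have hnn : 0 ≤ C1 * 2 ^ s.k * (2 * lam⁻¹ * (1 / 2) ^ d) ^ 10 := by positivity
      by_cases hx : w s x = 0
      · rw [hx, zero_mul, norm_zero]
        apply mul_nonneg hnn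
        split_ifs
        · unfold wt
          have := nrm_nonneg (x - s.c K)
          positivity
        · exact le_rfl
      · obtain ⟨h1, h2⟩ := hw s hs x hx
        rw [if_pos ⟨Finset.mem_univ x, h1⟩, norm_mul]
        have h3 := h2 t ht hab
        have hdp := dk_pos s.k (x - s.c K)
        have h4 : dk s.k (x - s.c K) ≤ 2 * lam⁻¹ * (1 / 2) ^ d := by
          have h5 : nrm (x - t.c K) ≤ nrm (x - s.c K) + ((2:ℝ) ^ t.k)⁻¹ := by
            have e1 := nrm_tri x (s.c K) (t.c K)
            have e2 : nrm (s.c K - t.c K) ≤ ((2:ℝ) ^ t.k)⁻¹ := by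
              have hc : s.c K ∈ t.I K :=
                mem_of_above hab (by have := hsO.1; omega)
                  (H350.pt_mem_dy (by have := hsO.1; omega) hsO.2.1)
              exact (H69.pGEO3 K t.k t.j 0 (s.c K) (by have := (hok t ht).1; omega) (by norm_num)
                (hok t ht).2.1 hc).1
            linarith
          have hpt' : (0:ℝ) < 2 ^ t.k := by positivity
          have h6 : lam ≤ 2 + 2 ^ t.k * nrm (x - s.c K) := by
            have h7 := mul_le_mul_of_nonneg_left h5 hpt'.le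
            rw [_root_.mul_add, mul_inv_cancel₀ hpt'.ne'] at h7
            linarith
          have h8 : lam / 2 * 2 ^ d ≤ 1 + 2 ^ s.k * nrm (x - s.c K) := by
            rw [hdk, pow_add]
            have h9 : lam / 2 ≤ 2 ^ t.k * nrm (x - s.c K) := by linarith
            have h10 := mul_le_mul_of_nonneg_right h9 (by positivity : (0:ℝ) ≤ 2 ^ d)
            nlinarith
          unfold dk
          have h11 : 0 < lam / 2 * 2 ^ d := by positivity
          calc (1 + 2 ^ s.k * nrm (x - s.c K))⁻¹ ≤ (lam / 2 * 2 ^ d)⁻¹ := inv_anti₀ h11 h8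
            _ = 2 * lam⁻¹ * (1 / 2) ^ d := by
                rw [mul_inv, inv_div, one_div, inv_pow]; field_simp
        calc ‖w s x‖ * ‖pk m r s x‖ ≤ 1 * (C1 * 2 ^ s.k * dk s.k (x - s.c K) ^ 20) :=
              mul_le_mul (hw1 s hs x) (hC1 m hm K r hr s hsO x) (norm_nonneg _) zero_le_one
          _ = C1 * 2 ^ s.k * (dk s.k (x - s.c K) ^ 10 * dk s.k (x - s.c K) ^ 10) := by ring
          _ ≤ C1 * 2 ^ s.k * ((2 * lam⁻¹ * (1 / 2) ^ d) ^ 10 * dk s.k (x - s.c K) ^ 10) := by
              apply mul_le_mul_of_nonneg_left _ (by positivity)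
              exact mul_le_mul_of_nonneg_right (pow_le_pow_left₀ hdp.le h4 10) (by positivity)
          _ = _ := by unfold wt dk; ring
    have hbco : ‖aveC (fun x => w s x * pk m r s x)‖ ≤
        C1 * (2 * lam⁻¹ * (1 / 2) ^ d) ^ 10 * μ := by
      refine (H350.norm_aveC_le _).trans ((H350.ave_mono hpt).trans ?_)
      rw [H350.ave_mul_left]
      have h5 : dens univ N s ≤ μ * s.len := hms s hs s (by
        refine ⟨le_rfl, by simp, ?_⟩
        simp)
      have h6 : ave (fun x : X K => if x ∈ (univ : Finset (X K)) ∧ N x / 2 ^ s.k = s.l then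
          wt s.k (s.c K) x else 0) = dens univ N s := rfl
      rw [h6]
      calc C1 * 2 ^ s.k * (2 * lam⁻¹ * (1 / 2) ^ d) ^ 10 * dens univ N s
          ≤ C1 * 2 ^ s.k * (2 * lam⁻¹ * (1 / 2) ^ d) ^ 10 * (μ * s.len) :=
            mul_le_mul_of_nonneg_left h5 (by positivity)
        _ = C1 * (2 * lam⁻¹ * (1 / 2) ^ d) ^ 10 * μ * (s.len * 2 ^ s.k) := by ring
        _ = _ := by rw [H350.len_mul, mul_one]
    have hl := (H350.len_pos s).le
    have h7 : ((1:ℝ) / 2) ^ (10 * d) ≤ (1 / 2) ^ d :=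
      pow_le_pow_of_le_one (by norm_num) (by norm_num) (by omega)
    calc s.len * ‖a s‖ * ‖aveC (fun x => w s x * pk m r s x)‖
        ≤ s.len * e * (C1 * (2 * lam⁻¹ * (1 / 2) ^ d) ^ 10 * μ) := by
          apply mul_le_mul _ hbco (norm_nonneg _) (by positivity)
          exact mul_le_mul_of_nonneg_left (ha s hs) hl
      _ = (C1 * 2 ^ 10 * e * μ * (lam⁻¹) ^ 10) * (s.len * (1 / 2) ^ (10 * d)) := by
          rw [mul_comm 10 d, pow_mul]; ring
      _ ≤ _ := by
          apply mul_le_mul_of_nonneg_left _ (by positivity)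
          exact mul_le_mul_of_nonneg_left h7 hl
  refine (Finset.sum_le_sum hterm).trans ?_
  rw [← Finset.mul_sum]
  calc _ ≤ (C1 * 2 ^ 10 * e * μ * (lam⁻¹) ^ 10) * (46 * ((2:ℝ) ^ kT)⁻¹) :=
        mul_le_mul_of_nonneg_left (pack hT hok) (by positivity)
    _ = _ := by ring

end Vale.Agent.P091.CH.H106
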