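import Vale.Agent.P091.CH.H106.Sel

/-!
Energy lemma, part (b): geometry of the grid (helper106).
-/

open Finset

namespace Vale.Agent.P091.CH.H106

variable {K : ℕ}

theorem nrm_nonneg (x : X K) : 0 ≤ nrm x := norm_nonneg _

theorem nrm_neg (x : X K) : nrm (-x) = nrm x := by
  unfold nrm; rw [map_neg, norm_neg]

theorem nrm_sub_comm (x y : X K) : nrm (x - y) = nrm (y - x) := by
  rw [← nrm_neg (x - y), neg_sub]

theorem nrm_tri (x y z : X K) : nrm (x - z) ≤ nrm (x - y) + nrm (y - z) := by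
  unfold nrm
  have : x - z = (x - y) + (y - z) := by ring
  rw [this, map_add]
  exact norm_add_le _ _

/-- lower bound for the norm of a difference -/
theorem le_nrm_sub (x y : X K) (δ : ℝ) (h1 : δ * 2 ^ K ≤ |(x.val : ℝ) - y.val|)
    (h2 : |(x.val : ℝ) - y.val| ≤ (1 - δ) * 2 ^ K) : δ ≤ nrm (x - y) := by
  have hK : (0:ℝ) < 2 ^ K := by positivity
  have hx : x = ((x.val : ℤ) : X K) := by simp
  have hy : y = ((y.val : ℤ) : X K) := by simp
  have e1 : nrm (x - y) = |(((x.val : ℝ) - y.val) / 2 ^ K) -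
      round (((x.val : ℝ) - y.val) / 2 ^ K)| := by
    unfold nrm
    conv_lhs => rw [hx, hy, ← Int.cast_sub]
    rw [ZMod.toAddCircle_intCast, UnitAddCircle.norm_eq]
    push_cast
    ring_nf
  rw [e1]
  set r : ℝ := ((x.val : ℝ) - y.val) / 2 ^ K with hr
  have h3 : |r| = |(x.val : ℝ) - y.val| / 2 ^ K := by
    rw [hr, abs_div, abs_of_pos hK]
  have h4 : δ ≤ |r| := by rw [h3, le_div_iff₀ hK]; exact h1
  have h5 : |r| ≤ 1 - δ := by rw [h3, div_le_iff₀ hK]; exact h2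
  by_cases hn : round r = 0
  · rw [hn]; simpa using h4
  · have h6 : (1:ℝ) ≤ |(round r : ℝ)| := by
      have : (1:ℤ) ≤ |round r| := Int.one_le_abs hn
      exact_mod_cast this
    have h7 : |(round r : ℝ)| - |r| ≤ |r - round r| := by
      rw [abs_sub_comm]; exact abs_sub_abs_le_abs_sub _ _
    linarith

theorem val_lt (x : X K) : x.val < 2 ^ K := ZMod.val_lt x

theorem pt_val {k j : ℕ} (hk : k ≤ K) (hj : j < 2 ^ k) : (pt K k j 0).val = j * 2 ^ (K - k) := by
  unfold pt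
  rw [zero_mul, add_zero, ZMod.val_natCast]
  apply Nat.mod_eq_of_lt
  calc j * 2 ^ (K - k) < 2 ^ k * 2 ^ (K - k) := Nat.mul_lt_mul_of_pos_right hj (by positivity)
    _ = 2 ^ K := by rw [← pow_add]; congr 1; omega

theorem mem_dy {k j : ℕ} {x : X K} : x ∈ dy K k j ↔ x.val / 2 ^ (K - k) = j := by
  simp [dy]

/-- different intervals of the same scale are disjoint -/
theorem dy_disj_same {k j j' : ℕ} (h : j ≠ j') : Disjoint (dy K k j) (dy K k j') := by
  rw [Finset.disjoint_left]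
  intro x h1 h2
  rw [mem_dy] at h1 h2
  exact h (h1.symm.trans h2)

/-- non nested intervals are disjoint -/
theorem dy_disj {k j k' j' : ℕ} (hk : k ≤ k') (hK : k' ≤ K) (h : j' / 2 ^ (k' - k) ≠ j) :
    Disjoint (dy K k j) (dy K k' j') := by
  rw [Finset.disjoint_left]
  intro x h1 h2
  rw [mem_dy] at h1 h2
  apply h
  rw [← h2, Nat.div_div_eq_div_mul, ← pow_add, ← h1]
  congr 2
  omega

/-- points outside a dyadic interval are far from the inner grid points -/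
theorem outside {kT jT k i : ℕ} (hk : kT ≤ k) (hK : k ≤ K) (hi : i < 2 ^ (k - kT))
    (hj : jT < 2 ^ kT) (x : X K) (hx : x ∉ dy K kT jT) :
    (min (i:ℝ) (2 ^ (k - kT) - i)) * ((2:ℝ) ^ k)⁻¹ ≤
      nrm (x - pt K k (jT * 2 ^ (k - kT) + i) 0) := by
  have hj' : jT * 2 ^ (k - kT) + i < 2 ^ k := by
    have e : 2 ^ k = 2 ^ kT * 2 ^ (k - kT) := by rw [← pow_add]; congr 1; omega
    rw [e]
    calc jT * 2 ^ (k - kT) + i < jT * 2 ^ (k - kT) + 2 ^ (k - kT) := by omega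
      _ = (jT + 1) * 2 ^ (k - kT) := by ring
      _ ≤ 2 ^ kT * 2 ^ (k - kT) := Nat.mul_le_mul_right _ hj
  have hpv := pt_val hK hj'
  -- everything in units of the grid
  set v : ℕ := (jT * 2 ^ (k - kT) + i) * 2 ^ (K - k) with hv
  set u : ℕ := x.val with hu
  have huK : u < 2 ^ K := val_lt x
  have eK : 2 ^ K = 2 ^ kT * 2 ^ (k - kT) * 2 ^ (K - k) := by
    rw [← pow_add, ← pow_add]; congr 1; omega
  have eT : 2 ^ (K - kT) = 2 ^ (k - kT) * 2 ^ (K - k) := by
    rw [← pow_add]; congr 1; omega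
  have hout : u < jT * 2 ^ (K - kT) ∨ (jT + 1) * 2 ^ (K - kT) ≤ u := by
    by_contra hcon
    push Not at hcon
    apply hx
    rw [mem_dy]
    exact Nat.div_eq_of_lt_le (by rw [hu] at hcon; exact hcon.1) (by rw [hu] at hcon; exact hcon.2)
  -- real versions
  have hM : (0:ℝ) < 2 ^ (k - kT) := by positivity
  have hq : (0:ℝ) < 2 ^ (K - k) := by positivity
  have eKr : (2:ℝ) ^ K = 2 ^ kT * 2 ^ (k - kT) * 2 ^ (K - k) := by exact_mod_cast eK
  have ekr : (2:ℝ) ^ k = 2 ^ kT * 2 ^ (k - kT) := by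
    rw [← pow_add]; congr 1; omega
  have hvr : (v:ℝ) = (jT * 2 ^ (k - kT) + i) * 2 ^ (K - k) := by
    rw [hv]; push_cast; ring
  have huKr : (u:ℝ) + 1 ≤ 2 ^ K := by exact_mod_cast huK
  have hir : (i:ℝ) ≤ 2 ^ (k - kT) := by exact_mod_cast hi.le
  have hi0 : (0:ℝ) ≤ i := by positivity
  have hjr : (jT:ℝ) + 1 ≤ 2 ^ kT := by exact_mod_cast hj
  have hoR : (u:ℝ) ≤ jT * (2 ^ (k - kT) * 2 ^ (K - k)) ∨
      ((jT:ℝ) + 1) * (2 ^ (k - kT) * 2 ^ (K - k)) ≤ u := by
    rcases hout with h | h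
    · left
      rw [eT] at h
      exact_mod_cast h.le
    · right
      rw [eT] at h
      exact_mod_cast h
  set δ : ℝ := (min (i:ℝ) (2 ^ (k - kT) - i)) * ((2:ℝ) ^ k)⁻¹ with hδ
  set m : ℝ := min (i:ℝ) (2 ^ (k - kT) - i) with hm
  have hm1 : m ≤ i := min_le_left _ _
  have hm2 : m ≤ 2 ^ (k - kT) - i := min_le_right _ _
  have hδK : δ * 2 ^ K = m * 2 ^ (K - k) := by
    rw [hδ, eKr, ekr]
    field_simp
  apply le_nrm_sub
  · rw [hδK, hpv, hvr, ← hu]
    rcases hoR with h | h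
    · rw [abs_sub_comm]
      refine le_trans ?_ (le_abs_self _)
      nlinarith
    · refine le_trans ?_ (le_abs_self _)
      nlinarith
  · have : (1 - δ) * 2 ^ K = 2 ^ K - m * 2 ^ (K - k) := by rw [← hδK]; ring
    rw [this, hpv, hvr, ← hu, abs_le]
    have hu0 : (0:ℝ) ≤ u := by positivity
    have hj0 : (0:ℝ) ≤ jT := by positivity
    have hMq : 0 < (2:ℝ) ^ (k - kT) * 2 ^ (K - k) := by positivity
    have h9 : ((jT:ℝ) + 1) * (2 ^ (k - kT) * 2 ^ (K - k)) ≤ 2 ^ K := by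
      rw [eKr]; nlinarith
    constructor
    · nlinarith
    · have h10 : (0:ℝ) ≤ jT * (2 ^ (k - kT) * 2 ^ (K - k)) := by positivity
      nlinarith

end Vale.Agent.P091.CH.H106
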