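import Vale.Agent.P091.CH.Props

/-!
Energy lemma, part (a): selection of lacunary trees in order of increasing frequency, and
strong disjointness (helper106).
-/

open Finset

namespace Vale.Agent.P091.CH.H106

/-- a lacunary tree of `P` whose energy is larger than `e / 2` -/
def Bad (a : Tile → ℂ) (P : Finset Tile) (e : ℝ) (T : Finset Tile) (kT jT : ℕ) (ξ : ℤ) : Prop :=
  T ⊆ P ∧ IsLac T kT jT ξ ∧ (e / 2) ^ 2 * ((2:ℝ) ^ kT)⁻¹ < ∑ s ∈ T, s.len * ‖a s‖ ^ 2

theorem Bad.nonempty {a : Tile → ℂ} {P : Finset Tile} {e : ℝ} {T : Finset Tile} {kT jT : ℕ}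
    {ξ : ℤ} (h : Bad a P e T kT jT ξ) : T.Nonempty := by
  rcases T.eq_empty_or_nonempty with h0 | h0
  · exfalso
    have h1 := h.2.2
    rw [h0, Finset.sum_empty] at h1
    have h2 : 0 ≤ (e / 2) ^ 2 * ((2:ℝ) ^ kT)⁻¹ := by positivity
    linarith
  · exact h0

theorem lac_low {ξ : ℤ} {s : Tile} (h : |s.l - ξ / 2 ^ s.k| ≤ 1) :
    (s.l - 1) * 2 ^ s.k ≤ ξ := by
  have h1 := (abs_le.1 h).2
  have h2 : s.l - 1 ≤ ξ / 2 ^ s.k := by linarith
  exact (Int.le_ediv_iff_mul_le (by positivity)).1 h2

theorem lac_high {ξ : ℤ} {s : Tile} (h : |s.l - ξ / 2 ^ s.k| ≤ 1) :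
    ξ < (s.l + 2) * 2 ^ s.k := by
  have h1 := (abs_le.1 h).1
  have h2 : ξ / 2 ^ s.k < s.l + 2 := by linarith
  exact (Int.ediv_lt_iff_lt_mul (by positivity)).1 h2

/-- the output of the selection -/
structure Sel (a : Tile → ℂ) (e : ℝ) (P : Finset Tile) where
  n : ℕ
  L : Finset Tile
  R : ℕ → Finset Tile
  T : ℕ → Finset Tile
  kT : ℕ → ℕ
  jT : ℕ → ℕ
  ξ : ℕ → ℤ
  light : L ⊆ P
  low : EnLe a L (e / 2)
  sub : ∀ i < n, R i ⊆ P \ L
  disj : ∀ i < n, ∀ i' < n, i ≠ i' → Disjoint (R i) (R i')
  cover : ∀ s ∈ P, s ∈ L ∨ ∃ i < n, s ∈ R i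
  tree : ∀ i < n, IsTree (R i) (kT i) (jT i) (ξ i)
  TR : ∀ i < n, T i ⊆ R i
  lac : ∀ i < n, IsLac (T i) (kT i) (jT i) (ξ i)
  big : ∀ i < n, (e / 2) ^ 2 * ((2:ℝ) ^ (kT i))⁻¹ < ∑ s ∈ T i, s.len * ‖a s‖ ^ 2
  mono : ∀ i < n, ∀ i' < n, i ≤ i' → ξ i ≤ ξ i'
  rem : ∀ i < n, ∀ i' < n, i < i' → ∀ s ∈ R i', ¬ InTree 11 (kT i) (jT i) (ξ i) s

open Classical in
theorem exists_sel (a : Tile → ℂ) (e : ℝ) : ∀ P : Finset Tile, Nonempty (Sel a e P) := by
  intro P
  induction P using Finset.strongInduction with
  | H P ih =>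
    by_cases hE : EnLe a P (e / 2)
    · exact ⟨{ n := 0, L := P, R := fun _ => ∅, T := fun _ => ∅, kT := fun _ => 0,
               jT := fun _ => 0, ξ := fun _ => 0, light := subset_rfl, low := hE,
               sub := by intro i hi; omega
               disj := by intro i hi; omega
               cover := fun s hs => Or.inl hs
               tree := by intro i hi; omega
               TR := by intro i hi; omega
               lac := by intro i hi; omega
               big := by intro i hi; omega
               mono := by intro i hi; omega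
               rem := by intro i hi; omega }⟩
    · -- there is a bad tree; choose one with minimal frequency
      have h1 : ∃ ξ : ℤ, ∃ T kT jT, Bad a P e T kT jT ξ := by
        unfold EnLe at hE
        push Not at hE
        obtain ⟨T, hT, kT, jT, ξ, hl, hb⟩ := hE
        exact ⟨ξ, T, kT, jT, hT, hl, hb⟩
      have h2 : ∃ b : ℤ, ∀ z : ℤ, (∃ T kT jT, Bad a P e T kT jT z) → b ≤ z := by
        refine ⟨-∑ s ∈ P, |(s.l - 1) * 2 ^ s.k|, ?_⟩
        rintro z ⟨T, kT, jT, hb⟩
        obtain ⟨s, hs⟩ := hb.nonempty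
        have h3 := lac_low (hb.2.1 s hs).2.2
        have h4 : |(s.l - 1) * 2 ^ s.k| ≤ ∑ s ∈ P, |(s.l - 1) * 2 ^ s.k| :=
          Finset.single_le_sum (f := fun s : Tile => |(s.l - 1) * 2 ^ s.k|)
            (fun _ _ => abs_nonneg _) (hb.1 hs)
        have h5 := neg_abs_le ((s.l - 1) * 2 ^ s.k)
        linarith
      obtain ⟨ξ0, ⟨T0, k0, j0, hb⟩, hmin⟩ := Int.exists_least_of_bdd h2 h1
      set R0 : Finset Tile := P.filter (fun s => InTree 11 k0 j0 ξ0 s) with hR0
      have hTR : T0 ⊆ R0 := by
        intro s hs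
        have h3 := hb.2.1 s hs
        exact Finset.mem_filter.2 ⟨hb.1 hs, h3.1, h3.2.1, h3.2.2.trans (by norm_num)⟩
      have hss : P \ R0 ⊂ P := by
        refine Finset.sdiff_ssubset (Finset.filter_subset _ _) ?_
        exact hb.nonempty.mono hTR
      obtain ⟨S⟩ := ih _ hss
      have hSP : ∀ s, s ∈ S.L → s ∈ P ∧ s ∉ R0 := fun s hs => Finset.mem_sdiff.1 (S.light hs)
      have hRi : ∀ i < S.n, ∀ s ∈ S.R i, s ∈ P ∧ s ∉ R0 ∧ s ∉ S.L := by
        intro i hi s hs
        have h3 := Finset.mem_sdiff.1 (S.sub i hi hs)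
        have h4 := Finset.mem_sdiff.1 h3.1
        exact ⟨h4.1, h4.2, h3.2⟩
      refine ⟨{ n := S.n + 1, L := S.L
                R := fun i => if i = 0 then R0 else S.R (i - 1)
                T := fun i => if i = 0 then T0 else S.T (i - 1)
                kT := fun i => if i = 0 then k0 else S.kT (i - 1)
                jT := fun i => if i = 0 then j0 else S.jT (i - 1)
                ξ := fun i => if i = 0 then ξ0 else S.ξ (i - 1)
                light := fun s hs => (hSP s hs).1
                low := S.low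
                sub := ?_, disj := ?_, cover := ?_, tree := ?_, TR := ?_, lac := ?_,
                big := ?_, mono := ?_, rem := ?_ }⟩
      · intro i hi s hs
        rcases Nat.eq_zero_or_pos i with h0 | h0
        · subst h0
          simp only [if_true] at hs
          refine Finset.mem_sdiff.2 ⟨Finset.filter_subset _ _ hs, fun hL => (hSP s hL).2 hs⟩
        · simp only [if_neg h0.ne'] at hs
          have h3 := hRi (i - 1) (by omega) s hs
          exact Finset.mem_sdiff.2 ⟨h3.1, h3.2.2⟩
      · intro i hi i' hi' hne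
        rw [Finset.disjoint_left]
        intro s hs hs'
        rcases Nat.eq_zero_or_pos i with h0 | h0
        · subst h0
          have h0' : i' ≠ 0 := fun h => hne h.symm
          simp only [if_true] at hs
          simp only [if_neg h0'] at hs'
          exact (hRi (i' - 1) (by omega) s hs').2.1 hs
        · rcases Nat.eq_zero_or_pos i' with h1' | h1'
          · subst h1'
            simp only [if_true] at hs'
            simp only [if_neg h0.ne'] at hs
            exact (hRi (i - 1) (by omega) s hs).2.1 hs'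
          · simp only [if_neg h0.ne'] at hs
            simp only [if_neg h1'.ne'] at hs'
            exact Finset.disjoint_left.1 (S.disj (i - 1) (by omega) (i' - 1) (by omega)
              (by omega)) hs hs'
      · intro s hs
        by_cases hs0 : s ∈ R0
        · exact Or.inr ⟨0, by omega, by simpa using hs0⟩
        · rcases S.cover s (Finset.mem_sdiff.2 ⟨hs, hs0⟩) with h3 | ⟨i, hi, h3⟩
          · exact Or.inl h3
          · exact Or.inr ⟨i + 1, by omega, by simpa using h3⟩
      · intro i hi
        rcases Nat.eq_zero_or_pos i with h0 | h0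
        · subst h0
          simp only [if_true]
          intro s hs
          exact (Finset.mem_filter.1 hs).2
        · simp only [if_neg h0.ne']
          exact S.tree (i - 1) (by omega)
      · intro i hi
        rcases Nat.eq_zero_or_pos i with h0 | h0
        · subst h0
          simpa only [if_true] using hTR
        · simp only [if_neg h0.ne']
          exact S.TR (i - 1) (by omega)
      · intro i hi
        rcases Nat.eq_zero_or_pos i with h0 | h0
        · subst h0
          simpa only [if_true] using hb.2.1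
        · simp only [if_neg h0.ne']
          exact S.lac (i - 1) (by omega)
      · intro i hi
        rcases Nat.eq_zero_or_pos i with h0 | h0
        · subst h0
          simpa only [if_true] using hb.2.2
        · simp only [if_neg h0.ne']
          exact S.big (i - 1) (by omega)
      · intro i hi i' hi' hle
        rcases Nat.eq_zero_or_pos i with h0 | h0
        · subst h0
          rcases Nat.eq_zero_or_pos i' with h1' | h1'
          · subst h1'
            exact le_rfl
          · simp only [if_true, if_neg h1'.ne']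
            refine hmin _ ⟨S.T (i' - 1), S.kT (i' - 1), S.jT (i' - 1), ?_, ?_, ?_⟩
            · intro s hs
              exact (hRi (i' - 1) (by omega) s (S.TR (i' - 1) (by omega) hs)).1
            · exact S.lac (i' - 1) (by omega)
            · exact S.big (i' - 1) (by omega)
        · have h1' : 0 < i' := lt_of_lt_of_le h0 hle
          simp only [if_neg h0.ne', if_neg h1'.ne']
          exact S.mono (i - 1) (by omega) (i' - 1) (by omega) (by omega)
      · intro i hi i' hi' hlt s hs
        have h1' : 0 < i' := by omega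
        simp only [if_neg h1'.ne'] at hs
        rcases Nat.eq_zero_or_pos i with h0 | h0
        · subst h0
          simp only [if_true]
          intro h3
          have h4 := hRi (i' - 1) (by omega) s hs
          exact h4.2.1 (Finset.mem_filter.2 ⟨h4.1, h3⟩)
        · simp only [if_neg h0.ne']
          exact S.rem (i - 1) (by omega) (i' - 1) (by omega) (by omega) s hs

/-- the support of the symbol of `s` -/
def lo (s : Tile) : ℤ := (s.l - 10) * 2 ^ s.k
def hi (s : Tile) : ℤ := (s.l - 2) * 2 ^ s.k

/-- the supports of the symbols meet -/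
def Meet (s t : Tile) : Prop := lo t < hi s ∧ lo s < hi t

theorem hi_eq (s : Tile) : hi s = lo s + 8 * 2 ^ s.k := by
  unfold hi lo; ring

/-- strong disjointness, frequency part, with slack -/
theorem near_of {s t : Tile} {ξ ξ' : ℤ} (hs : |s.l - ξ / 2 ^ s.k| ≤ 1)
    (ht : |t.l - ξ' / 2 ^ t.k| ≤ 1) (hk : s.k + 5 ≤ t.k)
    (h1 : lo t < hi s + 8 * 2 ^ s.k) (h2 : lo s - 8 * 2 ^ s.k < hi t) :
    ξ < ξ' ∧ |t.l - ξ / 2 ^ t.k| ≤ 11 := by
  have a1 := lac_low hs
  have a2 := lac_high hs
  have a3 := lac_low ht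
  obtain ⟨d, hd⟩ := Nat.exists_eq_add_of_le hk
  have hp : (2:ℤ) ^ t.k = 32 * 2 ^ d * 2 ^ s.k := by rw [hd, pow_add, pow_add]; ring
  have hd1 : (1:ℤ) ≤ 2 ^ d := one_le_pow₀ (by norm_num)
  set q : ℤ := 2 ^ s.k with hq
  have hq0 : 0 < q := by positivity
  set p : ℤ := 2 ^ t.k with hp'
  have hp0 : 0 < p := by positivity
  have hpq : 32 * q ≤ p := by
    rw [hp]; nlinarith
  unfold lo hi at h1 h2
  rw [← hq, ← hp'] at h1 h2
  have b1 : ξ < (t.l - 1) * p := by nlinarith
  have b2 : (t.l - 11) * p ≤ ξ := by nlinarith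
  refine ⟨lt_of_lt_of_le b1 a3, ?_⟩
  rw [abs_le]
  have c1 : ξ / p < t.l - 1 := (Int.ediv_lt_iff_lt_mul hp0).2 b1
  have c2 : t.l - 11 ≤ ξ / p := (Int.le_ediv_iff_mul_le hp0).2 b2
  constructor <;> linarith

end Vale.Agent.P091.CH.H106
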